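import Mathlib

/-!
P315, assembly of the query theorem: the curves along the comparison path.

Abstract data on the tree of slabs (level `j`, slab `i < M ^ (n - j)`, children `i * M + m`): costs
`C j i b` at the own index `b`, shifts `sft j i` between a slab and its parent, true row costs `d`,
rounding errors `er`, gap bounds `w`. The normalised excess at the static index `β`
(`lo + β` = own index of the root) is
`e j x β = max 0 ((C j (x / M ^ j) (lo + β - S j x) - D - Er) / W)`.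
-/

set_option autoImplicit false

open Finset

namespace Vale.Agent.P315.H808

/-! ### Block sums -/

/-- Sum over the rows of the slab `i` of level `j`. -/
def bs (M : ℕ) (f : ℕ → ℝ) (j i : ℕ) : ℝ := ∑ r ∈ range (M ^ j), f (i * M ^ j + r)

theorem bs_zero (M : ℕ) (f : ℕ → ℝ) (i : ℕ) : bs M f 0 i = f i := by simp [bs]

theorem sum_range_mul (f : ℕ → ℝ) (a b : ℕ) :
    ∑ r ∈ range (a * b), f r = ∑ m ∈ range a, ∑ r ∈ range b, f (m * b + r) := by
  induction a with
  | zero => simp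
  | succ a ih =>
    rw [sum_range_succ, ← ih, Nat.succ_mul, sum_range_add]

theorem bs_succ (M : ℕ) (f : ℕ → ℝ) (j i : ℕ) :
    bs M f (j + 1) i = ∑ m ∈ range M, bs M f j (i * M + m) := by
  unfold bs
  have h : M ^ (j + 1) = M * M ^ j := by rw [pow_succ, mul_comm]
  rw [h, sum_range_mul (fun r => f (i * (M * M ^ j) + r))]
  refine sum_congr rfl fun m _ => sum_congr rfl fun r _ => ?_
  congr 1
  ring

theorem bs_add (M : ℕ) (f g : ℕ → ℝ) (j i : ℕ) :
    bs M (fun r => f r + g r) j i = bs M f j i + bs M g j i := by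
  unfold bs; rw [sum_add_distrib]

theorem bs_pos {M : ℕ} (hM : 0 < M) {f : ℕ → ℝ} (hf : ∀ r, 0 < f r) (j i : ℕ) :
    0 < bs M f j i := by
  unfold bs
  refine sum_pos (fun r _ => hf _) ?_
  rw [nonempty_range_iff]
  positivity

theorem bs_nonneg {M : ℕ} {f : ℕ → ℝ} (hf : ∀ r, 0 ≤ f r) (j i : ℕ) :
    0 ≤ bs M f j i := sum_nonneg fun _ _ => hf _

/-- Sum over a fibre of `x ↦ x / M ^ j` on `Fin (M ^ n)`. -/
theorem sum_fib {M n j : ℕ} (hM : 0 < M) (hj : j ≤ n) {i : ℕ} (hi : i < M ^ (n - j))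
    (f : ℕ → ℝ) :
    ∑ y ∈ univ.filter (fun y : Fin (M ^ n) => (y : ℕ) / M ^ j = i), f y = bs M f j i := by
  have h1 : ∑ y ∈ univ.filter (fun y : Fin (M ^ n) => (y : ℕ) / M ^ j = i), f y =
      ∑ y ∈ (range (M ^ n)).filter (fun y => y / M ^ j = i), f y := by
    rw [sum_filter, sum_filter,
      ← Fin.sum_univ_eq_sum_range (fun y => if y / M ^ j = i then f y else 0) (M ^ n)]
  have hp : 0 < M ^ j := Nat.pow_pos hM
  have hn : M ^ n = M ^ (n - j) * M ^ j := by rw [← pow_add]; congr 1; omega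
  rw [h1]
  unfold bs
  symm
  refine sum_bij (fun r _ => i * M ^ j + r) ?_ ?_ ?_ ?_
  · intro r hr
    have hr' := mem_range.1 hr
    simp only [mem_filter, mem_range]
    constructor
    · calc i * M ^ j + r < i * M ^ j + M ^ j := by omega
        _ = (i + 1) * M ^ j := by ring
        _ ≤ M ^ (n - j) * M ^ j := Nat.mul_le_mul_right _ hi
        _ = M ^ n := hn.symm
    · rw [mul_comm, Nat.mul_add_div hp, Nat.div_eq_of_lt hr', add_zero]
  · intro r _ r' _ h
    simpa using h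
  · intro y hy
    simp only [mem_filter, mem_range] at hy
    refine ⟨y % M ^ j, mem_range.2 (Nat.mod_lt _ hp), ?_⟩
    have := Nat.div_add_mod y (M ^ j)
    rw [hy.2] at this
    rw [mul_comm i]
    exact this
  · intro r _; rfl

/-! ### Data along the comparison path -/

/-- Costs along the comparison path. -/
structure Along (M n : ℕ) where
  /-- cost of the slab at the own index -/
  C : ℕ → ℕ → ℤ → ℝ
  /-- own index of the parent minus own index of the slab -/
  sft : ℕ → ℕ → ℕ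
  /-- true cost of a row -/
  d : ℕ → ℝ
  /-- rounding error of a row -/
  er : ℕ → ℝ
  /-- gap bound of a row -/
  w : ℕ → ℝ
  er_nonneg : ∀ r, 0 ≤ er r
  w_pos : ∀ r, 0 < w r
  anti : ∀ j i, j ≤ n → i < M ^ (n - j) → Antitone (C j i)
  H1 : ∀ j i b, j < n → i < M ^ (n - (j + 1)) →
    C (j + 1) i b ≤ ∑ m ∈ range M, C j (i * M + m) (b - sft j (i * M + m))
  leaf : ∀ i b, i < M ^ n → C 0 i b ≤ d i + er i + w i
  leaf' : ∀ i b, i < M ^ n → 0 ≤ b → C 0 i b ≤ d i + er i

namespace Along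

variable {M n : ℕ} (A : Along M n)

/-- Weight of a slab. -/
def W (j i : ℕ) : ℝ := bs M A.w j i

/-- True cost plus rounding error of a slab. -/
def DE (j i : ℕ) : ℝ := bs M (fun r => A.d r + A.er r) j i

/-- Total shift between the root and the slab of level `j` above the row `x`. -/
def S (j x : ℕ) : ℕ := ∑ l ∈ Ico j n, A.sft l (x / M ^ l)

/-- The excess at the own index, normalised. -/
noncomputable def ex (j i : ℕ) (b : ℤ) : ℝ := max 0 ((A.C j i b - A.DE j i) / A.W j i)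

/-- The normalised excess at the static index. -/
noncomputable def e (lo : ℤ) (j x β : ℕ) : ℝ := A.ex j (x / M ^ j) (lo + β - A.S j x)

theorem child_lt {j i m : ℕ} (hj : j < n) (hi : i < M ^ (n - (j + 1))) (hm : m < M) :
    i * M + m < M ^ (n - j) := by
  have h1 : n - j = (n - (j + 1)) + 1 := by omega
  rw [h1, pow_succ]
  calc i * M + m < i * M + M := by omega
    _ = (i + 1) * M := by ring
    _ ≤ M ^ (n - (j + 1)) * M := Nat.mul_le_mul_right _ hi

theorem W_pos (hM : 0 < M) (j i : ℕ) : 0 < A.W j i := bs_pos hM A.w_pos j i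

theorem W_succ (j i : ℕ) : A.W (j + 1) i = ∑ m ∈ range M, A.W j (i * M + m) := bs_succ _ _ _ _

theorem DE_succ (j i : ℕ) : A.DE (j + 1) i = ∑ m ∈ range M, A.DE j (i * M + m) :=
  bs_succ _ _ _ _

/-- Upper bound for the cost at every index. -/
theorem C_le (j : ℕ) : ∀ i b, j ≤ n → i < M ^ (n - j) → A.C j i b ≤ A.DE j i + A.W j i := by
  induction j with
  | zero =>
    intro i b _ hi
    have := A.leaf i b (by simpa using hi)
    simpa [DE, W, bs] using this
  | succ j ih =>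
    intro i b hj hi
    refine (A.H1 j i b (by omega) hi).trans ?_
    rw [DE_succ, W_succ, ← sum_add_distrib]
    exact sum_le_sum fun m hm => ih _ _ (by omega) (child_lt (by omega) hi (mem_range.1 hm))

/-- If all shifts below are small the cost is the true one. -/
theorem C_le' {q : ℕ → ℕ} (hq : ∀ j i, j < n → i < M ^ (n - j) → A.sft j i ≤ q j) (j : ℕ) :
    ∀ i b, j ≤ n → i < M ^ (n - j) → (∑ l ∈ range j, (q l : ℤ)) ≤ b → A.C j i b ≤ A.DE j i := by
  induction j with
  | zero =>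
    intro i b _ hi hb
    have := A.leaf' i b (by simpa using hi) (by simpa using hb)
    simpa [DE, bs] using this
  | succ j ih =>
    intro i b hj hi hb
    refine (A.H1 j i b (by omega) hi).trans ?_
    rw [DE_succ]
    refine sum_le_sum fun m hm => ?_
    have hc := child_lt (by omega) hi (mem_range.1 hm)
    refine ih _ _ (by omega) hc ?_
    rw [sum_range_succ] at hb
    have := hq j (i * M + m) (by omega) hc
    have h2 : ((A.sft j (i * M + m) : ℕ) : ℤ) ≤ (q j : ℤ) := by exact_mod_cast this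
    linarith

theorem ex_nonneg (j i : ℕ) (b : ℤ) : 0 ≤ A.ex j i b := le_max_left _ _

theorem ex_le_one (hM : 0 < M) {j i : ℕ} (b : ℤ) (hj : j ≤ n) (hi : i < M ^ (n - j)) :
    A.ex j i b ≤ 1 := by
  refine max_le zero_le_one ?_
  rw [div_le_one (A.W_pos hM j i)]
  have := A.C_le j i b hj hi
  linarith

theorem ex_anti (hM : 0 < M) {j i : ℕ} (hj : j ≤ n) (hi : i < M ^ (n - j)) :
    Antitone (A.ex j i) := by
  intro b b' h
  refine max_le_max le_rfl (div_le_div_of_nonneg_right ?_ (A.W_pos hM j i).le)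
  have := A.anti j i hj hi h
  linarith

theorem C_le_ex (hM : 0 < M) (j i : ℕ) (b : ℤ) :
    A.C j i b ≤ A.DE j i + A.W j i * A.ex j i b := by
  have h := A.W_pos hM j i
  have h1 : (A.C j i b - A.DE j i) / A.W j i ≤ A.ex j i b := le_max_right _ _
  rw [div_le_iff₀ h] at h1
  linarith

theorem ex_eq_zero {q : ℕ → ℕ} (hM : 0 < M)
    (hq : ∀ j i, j < n → i < M ^ (n - j) → A.sft j i ≤ q j) {j i : ℕ} {b : ℤ} (hj : j ≤ n)
    (hi : i < M ^ (n - j)) (hb : (∑ l ∈ range j, (q l : ℤ)) ≤ b) : A.ex j i b = 0 := by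
  refine le_antisymm (max_le le_rfl ?_) (A.ex_nonneg _ _ _)
  have := A.C_le' hq j i b hj hi hb
  exact div_nonpos_of_nonpos_of_nonneg (by linarith) (A.W_pos hM j i).le

/-- (H1) for the excess. -/
theorem ex_succ (hM : 0 < M) {j i : ℕ} (b : ℤ) (hj : j < n) (hi : i < M ^ (n - (j + 1))) :
    A.W (j + 1) i * A.ex (j + 1) i b ≤
      ∑ m ∈ range M, A.W j (i * M + m) * A.ex j (i * M + m) (b - A.sft j (i * M + m)) := by
  have hW := A.W_pos hM (j + 1) i
  rcases le_total ((A.C (j + 1) i b - A.DE (j + 1) i) / A.W (j + 1) i) 0 with h | h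
  · have : A.ex (j + 1) i b = 0 := max_eq_left h
    rw [this, mul_zero]
    exact sum_nonneg fun m _ => mul_nonneg (A.W_pos hM _ _).le (A.ex_nonneg _ _ _)
  · have : A.ex (j + 1) i b = (A.C (j + 1) i b - A.DE (j + 1) i) / A.W (j + 1) i := max_eq_right h
    rw [this, mul_div_cancel₀ _ hW.ne']
    have h1 := A.H1 j i b hj hi
    have h2 : ∑ m ∈ range M, A.C j (i * M + m) (b - A.sft j (i * M + m)) ≤
        ∑ m ∈ range M, (A.DE j (i * M + m) +
          A.W j (i * M + m) * A.ex j (i * M + m) (b - A.sft j (i * M + m))) :=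
      sum_le_sum fun m _ => A.C_le_ex hM _ _ _
    rw [sum_add_distrib, ← DE_succ] at h2
    linarith

/-! ### Static coordinate -/

theorem S_top (x : ℕ) : A.S n x = 0 := by simp [S]

theorem S_succ {j : ℕ} (hj : j < n) (x : ℕ) :
    A.S j x = A.sft j (x / M ^ j) + A.S (j + 1) x := by
  unfold S
  rw [← sum_Ioo_add_eq_sum_Ico hj]
  rw [add_comm]
  congr 1

theorem S_congr {j x y : ℕ} (h : x / M ^ j = y / M ^ j) : A.S j x = A.S j y := by
  unfold S
  refine sum_congr rfl fun l hl => ?_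
  have hl' := (mem_Ico.1 hl).1
  have : M ^ l = M ^ j * M ^ (l - j) := by rw [← pow_add]; congr 1; omega
  rw [this, ← Nat.div_div_eq_div_mul, ← Nat.div_div_eq_div_mul, h]

theorem quot_lt (hM : 0 < M) {j : ℕ} (hj : j ≤ n) (x : Fin (M ^ n)) :
    (x : ℕ) / M ^ j < M ^ (n - j) := by
  rw [Nat.div_lt_iff_lt_mul (Nat.pow_pos hM), ← pow_add]
  have : n - j + j = n := by omega
  rw [this]
  exact x.isLt

theorem e_nonneg (lo : ℤ) (j x β : ℕ) : 0 ≤ A.e lo j x β := A.ex_nonneg _ _ _

theorem e_le_one (hM : 0 < M) (lo : ℤ) {j : ℕ} (hj : j ≤ n) (x : Fin (M ^ n)) (β : ℕ) :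
    A.e lo j x β ≤ 1 := A.ex_le_one hM _ hj (quot_lt hM hj x)

theorem e_anti (hM : 0 < M) (lo : ℤ) {j : ℕ} (hj : j ≤ n) (x : Fin (M ^ n)) :
    Antitone (A.e lo j x) := by
  intro β β' h
  refine A.ex_anti hM hj (quot_lt hM hj x) ?_
  have : (β : ℤ) ≤ β' := by exact_mod_cast h
  linarith

theorem e_meas (lo : ℤ) {j x y : ℕ} (h : x / M ^ j = y / M ^ j) : A.e lo j x = A.e lo j y := by
  funext β
  unfold e
  rw [h, A.S_congr h]

theorem nest {j x y : ℕ} (h : x / M ^ j = y / M ^ j) :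
    x / M ^ (j + 1) = y / M ^ (j + 1) := by
  rw [pow_succ, ← Nat.div_div_eq_div_mul, ← Nat.div_div_eq_div_mul, h]

theorem e_final (hM : 0 < M) {q : ℕ → ℕ}
    (hq : ∀ j i, j < n → i < M ^ (n - j) → A.sft j i ≤ q j) (lo : ℤ) {j : ℕ} (hj : j ≤ n)
    (x : Fin (M ^ n)) {β : ℕ} (hβ : (∑ l ∈ range n, (q l : ℤ)) ≤ lo + β) :
    A.e lo j x β = 0 := by
  refine A.ex_eq_zero hM hq hj (quot_lt hM hj x) ?_
  have h1 : (A.S j x : ℤ) ≤ ∑ l ∈ Ico j n, (q l : ℤ) := by
    unfold S
    push_cast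
    refine sum_le_sum fun l hl => ?_
    have := hq l ((x : ℕ) / M ^ l) (mem_Ico.1 hl).2 (quot_lt hM (mem_Ico.1 hl).2.le x)
    exact_mod_cast this
  have h2 : ∑ l ∈ range n, (q l : ℤ) = ∑ l ∈ range j, (q l : ℤ) + ∑ l ∈ Ico j n, (q l : ℤ) :=
    (sum_range_add_sum_Ico _ hj).symm
  linarith

/-- Weighted average over the fibre of a function of the child. -/
theorem sum_children (hM : 0 < M) {j : ℕ} (hj : j < n) {i : ℕ} (hi : i < M ^ (n - (j + 1)))
    (g : ℕ → ℝ) :
    ∑ y ∈ univ.filter (fun y : Fin (M ^ n) => (y : ℕ) / M ^ (j + 1) = i),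
      A.w y * g ((y : ℕ) / M ^ j) = ∑ m ∈ range M, A.W j (i * M + m) * g (i * M + m) := by
  rw [sum_fib hM (by omega) hi (fun y => A.w y * g (y / M ^ j)), bs_succ]
  refine sum_congr rfl fun m _ => ?_
  unfold W bs
  rw [sum_mul]
  refine sum_congr rfl fun r hr => ?_
  have hp : 0 < M ^ j := Nat.pow_pos hM
  have : ((i * M + m) * M ^ j + r) / M ^ j = i * M + m := by
    rw [mul_comm, Nat.mul_add_div hp, Nat.div_eq_of_lt (mem_range.1 hr), add_zero]
  simp only [this]

/-- (H1) in the static coordinate: the excess of the parent is at most the weighted average of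
the excesses of the children. -/
theorem e_gain (hM : 0 < M) (lo : ℤ) {j : ℕ} (hj : j < n) (x : Fin (M ^ n)) (β : ℕ) :
    A.e lo (j + 1) x β ≤
      (∑ y ∈ univ.filter (fun y : Fin (M ^ n) => (y : ℕ) / M ^ (j + 1) = (x : ℕ) / M ^ (j + 1)),
        A.w y * A.e lo j y β) /
      ∑ y ∈ univ.filter (fun y : Fin (M ^ n) => (y : ℕ) / M ^ (j + 1) = (x : ℕ) / M ^ (j + 1)),
        A.w y := by
  set i := (x : ℕ) / M ^ (j + 1) with hi
  have hil : i < M ^ (n - (j + 1)) := quot_lt hM (by omega) x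
  have h1 : ∑ y ∈ univ.filter (fun y : Fin (M ^ n) => (y : ℕ) / M ^ (j + 1) = i),
      A.w y = A.W (j + 1) i := sum_fib hM (by omega) hil _
  have h2 : ∑ y ∈ univ.filter (fun y : Fin (M ^ n) => (y : ℕ) / M ^ (j + 1) = i),
        A.w y * A.e lo j y β =
      ∑ m ∈ range M, A.W j (i * M + m) *
        A.ex j (i * M + m) (lo + β - A.S (j + 1) x - A.sft j (i * M + m)) := by
    rw [← A.sum_children hM hj hil
      (fun c => A.ex j c (lo + β - A.S (j + 1) x - A.sft j c))]
    refine sum_congr rfl fun y hy => ?_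
    congr 1
    have hy' : (y : ℕ) / M ^ (j + 1) = (x : ℕ) / M ^ (j + 1) := (mem_filter.1 hy).2
    unfold e
    rw [A.S_succ hj y, A.S_congr hy']
    congr 1
    push_cast
    ring
  rw [h1, h2, le_div_iff₀ (A.W_pos hM _ _), mul_comm]
  exact A.ex_succ hM _ hj hil

/-- The leaf curves. -/
theorem e_leaf (hM : 0 < M) (lo : ℤ) (x : Fin (M ^ n)) (β : ℕ) :
    A.e lo 0 x β ≤ if lo + β < A.S 0 x then 1 else 0 := by
  split_ifs with h
  · exact A.e_le_one hM lo (Nat.zero_le _) x β
  · unfold e ex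
    refine max_le le_rfl ?_
    have h0 : (x : ℕ) / M ^ 0 = x := by simp
    rw [h0]
    have := A.leaf' x (lo + β - A.S 0 x) x.isLt (by linarith)
    have h2 : A.DE 0 x = A.d x + A.er x := by simp [DE, bs]
    refine div_nonpos_of_nonpos_of_nonneg ?_ (A.W_pos hM _ _).le
    rw [h2]
    linarith

/-- **VAL.** The leaf curves sum to at most the positive part of the total shift minus the cut. -/
theorem sum_e_leaf (hM : 0 < M) (lo : ℤ) (x : Fin (M ^ n)) (T : ℕ) :
    ∑ β ∈ range T, A.e lo 0 x β ≤ max 0 ((A.S 0 x : ℝ) - lo) := by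
  refine (sum_le_sum fun β _ => A.e_leaf hM lo x β).trans ?_
  rw [sum_ite, sum_const_zero, add_zero, sum_const, nsmul_eq_mul, mul_one]
  rcases le_total ((A.S 0 x : ℤ) - lo) 0 with h | h
  · have : (range T).filter (fun β : ℕ => lo + (β : ℤ) < A.S 0 x) = ∅ := by
      refine filter_eq_empty_iff.2 fun β _ => ?_
      have : (0 : ℤ) ≤ β := by positivity
      omega
    rw [this]
    simp
  · have hsub : (range T).filter (fun β : ℕ => lo + (β : ℤ) < A.S 0 x) ⊆
        range ((A.S 0 x : ℤ) - lo).toNat := by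
      intro β hβ
      have := (mem_filter.1 hβ).2
      rw [mem_range]
      omega
    have h1 := card_le_card hsub
    rw [card_range] at h1
    refine le_max_of_le_right ?_
    have h2 : ((((A.S 0 x : ℤ) - lo).toNat : ℕ) : ℝ) = (A.S 0 x : ℝ) - lo := by
      have h3 : ((((A.S 0 x : ℤ) - lo).toNat : ℕ) : ℤ) = (A.S 0 x : ℤ) - lo := Int.toNat_of_nonneg h
      have h4 : (((((A.S 0 x : ℤ) - lo).toNat : ℕ) : ℤ) : ℝ) = (((A.S 0 x : ℤ) - lo : ℤ) : ℝ) := by
        rw [h3]
      push_cast at h4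
      exact_mod_cast h4
    rw [← h2]
    exact_mod_cast h1

/-- The root. -/
theorem root_le (hM : 0 < M) (lo : ℤ) (β : ℕ) (x : Fin (M ^ n)) :
    A.C n 0 (lo + β) ≤ A.DE n 0 + A.W n 0 * A.e lo n x β := by
  unfold e
  have h0 : (x : ℕ) / M ^ n = 0 := Nat.div_eq_of_lt x.isLt
  rw [h0, A.S_top]
  simpa using A.C_le_ex hM n 0 (lo + β)

end Along

end Vale.Agent.P315.H808
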