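import Vale.Agent.P315.C.Alg
import Vale.Agent.P315.H808.Along

/-! The curves of `C/Alg.lean` along a comparison path give the abstract data `Along`. Generic in
the labels, the penalties and the weights. -/

set_option autoImplicit false

open Finset

namespace Vale.Agent.P315.H808

open Vale.Agent.P315.C

/-! ### Routes -/

theorem best_nonempty (P : Par) (f : Leaf) (i0 m u v : ℕ)
    (h0 : ∃ p, P.μ ∣ p ∧ p ≤ P.B ∧ P.adm p p) :
    {x | ∃ r, P.RouteOK m r ∧ x = rcost P.sh m (fun i => f (i0 + i)) u v r}.Nonempty := by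
  obtain ⟨p, h1, h2, h3⟩ := h0
  exact ⟨_, fun _ => (p, p), fun _ _ => ⟨h1, h1, h2, h2, h3⟩, rfl⟩

theorem best_attained' (P : Par) (f : Leaf) (i0 m u v : ℕ)
    (h0 : ∃ p, P.μ ∣ p ∧ p ≤ P.B ∧ P.adm p p) :
    ∃ r, P.RouteOK m r ∧ best P f i0 m u v = rcost P.sh m (fun i => f (i0 + i)) u v r :=
  Nat.sInf_mem (best_nonempty P f i0 m u v h0)

theorem best_le' {P : Par} {m : ℕ} {r : ℕ → ℕ × ℕ} (h : P.RouteOK m r) (f : Leaf)
    (i0 u v : ℕ) : best P f i0 m u v ≤ rcost P.sh m (fun i => f (i0 + i)) u v r :=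
  Nat.sInf_le ⟨r, h, rfl⟩

theorem best_mono' {P : Par} {f g : Leaf} {i0 m : ℕ} (u v : ℕ)
    (h0 : ∃ p, P.μ ∣ p ∧ p ≤ P.B ∧ P.adm p p)
    (h : ∀ i < m, ∀ p q, P.μ ∣ p → P.μ ∣ q → p ≤ P.B → q ≤ P.B → P.adm p q →
      f (i0 + i) p q ≤ g (i0 + i) p q) :
    best P f i0 m u v ≤ best P g i0 m u v := by
  obtain ⟨r, hr, he⟩ := best_attained' P g i0 m u v h0
  rw [he]
  refine (best_le' hr f i0 u v).trans ?_
  unfold rcost
  refine Nat.add_le_add_right (sum_le_sum fun i hi => Nat.add_le_add_left ?_ _) _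
  obtain ⟨h1, h2, h3, h4, h5⟩ := hr i (mem_range.1 hi)
  exact h i (mem_range.1 hi) _ _ h1 h2 h3 h4 h5

/-- Concatenation. -/
def cat (m : ℕ) (r r' : ℕ → ℕ × ℕ) : ℕ → ℕ × ℕ := fun i => if i < m then r i else r' (i - m)

theorem dist_tri3 (a b c : ℕ) : Nat.dist a c ≤ Nat.dist a b + Nat.dist b c := by
  unfold Nat.dist
  omega

theorem prevPos_cat_lt {m : ℕ} (u : ℕ) (r r' : ℕ → ℕ × ℕ) {i : ℕ} (hi : i ≤ m) :
    prevPos u (cat m r r') i = prevPos u r i := by
  cases i with
  | zero => rfl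
  | succ i =>
    show (cat m r r' i).2 = (r i).2
    unfold cat
    rw [if_pos (by omega)]

theorem rcost_cat (sh m n : ℕ) (f : ℕ → ℕ → ℕ → ℕ) (u v w : ℕ) (r r' : ℕ → ℕ × ℕ) :
    rcost sh (m + n) f u w (cat m r r') ≤
      rcost sh m f u v r + rcost sh n (fun i => f (m + i)) v w r' := by
  unfold rcost
  rw [sum_range_add]
  have h1 : ∑ i ∈ range m, (sh * Nat.dist (prevPos u (cat m r r') i) (cat m r r' i).1 +
        f i (cat m r r' i).1 (cat m r r' i).2) =
      ∑ i ∈ range m, (sh * Nat.dist (prevPos u r i) (r i).1 + f i (r i).1 (r i).2) := by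
    refine sum_congr rfl fun i hi => ?_
    have hi := mem_range.1 hi
    rw [prevPos_cat_lt u r r' hi.le]
    unfold cat
    rw [if_pos hi]
  have hc : ∀ i, cat m r r' (m + i) = r' i := fun i => by
    unfold cat
    rw [if_neg (by omega)]
    congr 1
    omega
  rw [h1]
  cases n with
  | zero =>
    simp only [range_zero, sum_empty, add_zero, zero_add]
    rw [prevPos_cat_lt u r r' le_rfl]
    show _ ≤ _ + sh * Nat.dist v w
    have := dist_tri3 (prevPos u r m) v w
    nlinarith
  | succ n =>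
    rw [sum_range_succ', sum_range_succ']
    have h2 : prevPos u (cat m r r') (m + (n + 1)) = prevPos v r' (n + 1) := by
      show (cat m r r' (m + n)).2 = (r' n).2
      rw [hc]
    have h3 : prevPos u (cat m r r') (m + 0) = prevPos u r m := prevPos_cat_lt u r r' le_rfl
    have h4 : ∑ i ∈ range n, (sh * Nat.dist (prevPos u (cat m r r') (m + (i + 1)))
          (cat m r r' (m + (i + 1))).1 +
          f (m + (i + 1)) (cat m r r' (m + (i + 1))).1 (cat m r r' (m + (i + 1))).2) =
        ∑ i ∈ range n, (sh * Nat.dist (prevPos v r' (i + 1)) (r' (i + 1)).1 +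
          f (m + (i + 1)) (r' (i + 1)).1 (r' (i + 1)).2) := by
      refine sum_congr rfl fun i _ => ?_
      have h5 : prevPos u (cat m r r') (m + (i + 1)) = prevPos v r' (i + 1) := by
        show (cat m r r' (m + i)).2 = (r' i).2
        rw [hc]
      rw [h5, hc]
    rw [h2, h3, h4, hc]
    have := dist_tri3 (prevPos u r m) v (r' 0).1
    show _ ≤ _ + (_ + (sh * Nat.dist v (r' 0).1 + f (m + 0) (r' 0).1 (r' 0).2) + _)
    nlinarith

theorem routeOK_cat {P : Par} {m n : ℕ} {r r' : ℕ → ℕ × ℕ} (h : P.RouteOK m r)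
    (h' : P.RouteOK n r') : P.RouteOK (m + n) (cat m r r') := by
  intro i hi
  unfold cat
  split_ifs with h1
  · exact h i h1
  · exact h' (i - m) (by omega)

theorem best_concat' (P : Par) (f : Leaf) (i0 m n u v w : ℕ)
    (h0 : ∃ p, P.μ ∣ p ∧ p ≤ P.B ∧ P.adm p p) :
    best P f i0 (m + n) u w ≤ best P f i0 m u v + best P f (i0 + m) n v w := by
  obtain ⟨r, hr, he⟩ := best_attained' P f i0 m u v h0
  obtain ⟨r', hr', he'⟩ := best_attained' P f (i0 + m) n v w h0
  rw [he, he']
  refine (best_le' (routeOK_cat hr hr') f i0 u w).trans ?_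
  refine (rcost_cat P.sh m n (fun i => f (i0 + i)) u v w r r').trans ?_
  simp only [add_assoc, le_refl]

theorem best_sum' (P : Par) (f : Leaf) (i0 n N : ℕ) (a : ℕ → ℕ)
    (h0 : ∃ p, P.μ ∣ p ∧ p ≤ P.B ∧ P.adm p p) :
    best P f i0 (N * n) (a 0) (a N) ≤
      ∑ m ∈ range N, best P f (i0 + m * n) n (a m) (a (m + 1)) := by
  induction N with
  | zero =>
    simp only [zero_mul, range_zero, sum_empty]
    obtain ⟨p, h1, h2, h3⟩ := h0
    refine (best_le' (r := fun _ => (p, p)) (fun i hi => by omega) f i0 (a 0) (a 0)).trans ?_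
    simp [rcost, prevPos, Nat.dist_self]
  | succ N ih =>
    rw [sum_range_succ, Nat.succ_mul]
    exact (best_concat' P f i0 (N * n) n (a 0) (a N) (a (N + 1)) h0).trans
      (Nat.add_le_add_right ih _)

/-! ### Read sets and certified costs -/

section

variable {P : Par} {mc : Mach} {ω : Rnd} {vis hid : Leaf}

theorem rd_mono' (j : ℕ) : ∀ {b b' : ℤ}, b ≤ b' → ∀ i a,
    rd P mc ω vis hid j i a b ⊆ rd P mc ω vis hid j i a b' := by
  induction j using Nat.strong_induction_on with
  | _ j ih =>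
    intro b b' hb i a
    cases j with
    | zero =>
      rw [rd_zero, rd_zero]
      split_ifs with h1 h2
      · exact subset_rfl
      · exact empty_subset _
      · omega
      · exact subset_rfl
    | succ j =>
      rw [rd_succ]
      unfold stepRead
      refine union_subset_union ?_ ?_
      · refine biUnion_mono fun m _ => biUnion_mono fun a' _ => ?_
        exact ih j (by omega) (by linarith) _ _
      · refine biUnion_mono fun s _ => biUnion_mono fun q _ => ?_
        refine biUnion_subset_biUnion_of_subset_left _ ?_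
        exact range_mono (by omega)

theorem rd_child' {j i a m a' : ℕ} (hm : m < P.M) (ha : a' ∈ P.kids (j + 1) a) (b : ℤ) :
    rd P mc ω vis hid j (i * P.M + m) a' (b - ω.xi (j + 1) m - P.pen (j + 1) 1 a a') ⊆
      rd P mc ω vis hid (j + 1) i a b := by
  rw [rd_succ]
  unfold stepRead
  refine subset_trans ?_ subset_union_left
  refine subset_trans ?_ (subset_biUnion_of_mem (fun m => (P.kids (j + 1) a).biUnion fun a' =>
      rd P mc ω vis hid (j + 1 - 1) (i * P.M + m) a'
        (b - ω.xi (j + 1) m - P.pen (j + 1) 1 a a')) (mem_range.2 hm))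
  exact subset_biUnion_of_mem (fun a' =>
      rd P mc ω vis hid (j + 1 - 1) (i * P.M + m) a'
        (b - ω.xi (j + 1) m - P.pen (j + 1) 1 a a')) ha

theorem cval_anti' (h0 : ∃ p, P.μ ∣ p ∧ p ≤ P.B ∧ P.adm p p)
    (hle : ∀ i p q, P.adm p q → hid i p q ≤ vis i p q) {R R' : Finset (ℕ × ℕ)} (hR : R ⊆ R')
    (j i u v : ℕ) : cval P vis hid R' j i u v ≤ cval P vis hid R j i u v := by
  refine best_mono' u v h0 fun i' _ p q _ _ _ _ hpq => ?_
  unfold known
  split_ifs with h1 h2 h2
  · exact le_rfl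
  · exact hle _ _ _ hpq
  · obtain ⟨a, ha, hc⟩ := h2
    exact absurd ⟨a, hR ha, hc⟩ h1
  · exact le_rfl

end

/-- A comparison path with labels. `n` = level of the root. -/
structure Chain (P : Par) (vis hid : Leaf) (n : ℕ) where
  /-- position before the row -/
  pos : ℕ → ℕ
  /-- label of the slab -/
  lab : ℕ → ℕ → ℕ
  /-- true cost of the row plus slack -/
  d : ℕ → ℝ
  /-- gap bound of the row -/
  w : ℕ → ℝ
  w_pos : ∀ i, 0 < w i
  kid : ∀ j i m, j < n → i < P.M ^ (n - (j + 1)) → m < P.M →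
    lab j (i * P.M + m) ∈ P.kids (j + 1) (lab (j + 1) i)
  cell : ∀ i, i < P.M ^ n → ∀ R : Finset (ℕ × ℕ), (i, lab 0 i) ∈ R →
    (best P (known P vis hid R) i 1 (pos i) (pos (i + 1)) : ℝ) ≤ d i
  free : ∀ i, i < P.M ^ n → ∀ R : Finset (ℕ × ℕ),
    (best P (known P vis hid R) i 1 (pos i) (pos (i + 1)) : ℝ) ≤ d i + w i

namespace Chain

variable {P : Par} {vis hid : Leaf} {n : ℕ} (K : Chain P vis hid n)

/-- Index shift of a slab against its parent. -/
def sft (ω : Rnd) (j i : ℕ) : ℕ :=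
  ω.xi (j + 1) (i % P.M) + P.pen (j + 1) 1 (K.lab (j + 1) (i / P.M)) (K.lab j i)

/-- The data along the comparison path. -/
noncomputable def along (mc : Mach) (ω : Rnd) (h0 : ∃ p, P.μ ∣ p ∧ p ≤ P.B ∧ P.adm p p)
    (hle : ∀ i p q, P.adm p q → hid i p q ≤ vis i p q) : Along P.M n where
  C := fun j i b => (cR P mc ω vis hid j i (K.lab j i) b
    (K.pos (i * P.M ^ j)) (K.pos ((i + 1) * P.M ^ j)) : ℝ)
  sft := K.sft ω
  d := K.d
  er := fun _ => 0
  w := K.w
  er_nonneg := fun _ => le_rfl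
  w_pos := K.w_pos
  anti := fun j i _ _ b b' hb => by
    have := cval_anti' h0 hle (rd_mono' (P := P) (mc := mc) (ω := ω) (vis := vis) (hid := hid)
      j hb i (K.lab j i)) j i (K.pos (i * P.M ^ j)) (K.pos ((i + 1) * P.M ^ j))
    exact Nat.cast_le.2 this
  H1 := fun j i b hj hi => by
    have key : cR P mc ω vis hid (j + 1) i (K.lab (j + 1) i) b
        (K.pos (i * P.M ^ (j + 1))) (K.pos ((i + 1) * P.M ^ (j + 1))) ≤
        ∑ m ∈ range P.M, cR P mc ω vis hid j (i * P.M + m) (K.lab j (i * P.M + m))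
          (b - K.sft ω j (i * P.M + m)) (K.pos ((i * P.M + m) * P.M ^ j))
          (K.pos ((i * P.M + m + 1) * P.M ^ j)) := by
      have h1 : P.M ^ (j + 1) = P.M * P.M ^ j := by rw [pow_succ, mul_comm]
      have h2 := best_sum' P (known P vis hid (rd P mc ω vis hid (j + 1) i (K.lab (j + 1) i) b))
        (i * P.M ^ (j + 1)) (P.M ^ j) P.M (fun m => K.pos ((i * P.M + m) * P.M ^ j)) h0
      have e1 : K.pos ((i * P.M + 0) * P.M ^ j) = K.pos (i * P.M ^ (j + 1)) := by
        congr 1; rw [h1]; ring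
      have e2 : K.pos ((i * P.M + P.M) * P.M ^ j) = K.pos ((i + 1) * P.M ^ (j + 1)) := by
        congr 1; rw [h1]; ring
      rw [e1, e2, ← h1] at h2
      refine h2.trans (sum_le_sum fun m hm => ?_)
      have hm' := mem_range.1 hm
      have e3 : i * P.M ^ (j + 1) + m * P.M ^ j = (i * P.M + m) * P.M ^ j := by rw [h1]; ring
      have e4 : i * P.M + (m + 1) = i * P.M + m + 1 := by ring
      rw [e3, e4]
      refine cval_anti' h0 hle ?_ j (i * P.M + m) _ _
      have hd : (i * P.M + m) / P.M = i := by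
        rw [mul_comm, Nat.mul_add_div (by omega), Nat.div_eq_of_lt hm', add_zero]
      have hr : (i * P.M + m) % P.M = m := by
        rw [mul_comm, Nat.mul_add_mod, Nat.mod_eq_of_lt hm']
      have h3 := rd_child' (P := P) (mc := mc) (ω := ω) (vis := vis) (hid := hid) (i := i)
        (a := K.lab (j + 1) i) hm' (K.kid j i m hj hi hm') b
      unfold sft
      rw [hd, hr]
      push_cast
      rw [← sub_sub]
      exact h3
    exact_mod_cast key
  leaf := fun i b hi => by
    have := K.free i hi (rd P mc ω vis hid 0 i (K.lab 0 i) b)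
    show (cval P vis hid (rd P mc ω vis hid 0 i (K.lab 0 i) b) 0 i
      (K.pos (i * P.M ^ 0)) (K.pos ((i + 1) * P.M ^ 0)) : ℝ) ≤ _
    unfold cval
    simpa using this
  leaf' := fun i b hi hb => by
    have := K.cell i hi (rd P mc ω vis hid 0 i (K.lab 0 i) b) (by
      rw [rd_zero, if_neg (by omega)]
      exact mem_singleton_self _)
    show (cval P vis hid (rd P mc ω vis hid 0 i (K.lab 0 i) b) 0 i
      (K.pos (i * P.M ^ 0)) (K.pos ((i + 1) * P.M ^ 0)) : ℝ) ≤ _
    unfold cval
    simpa using this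

end Chain

end Vale.Agent.P315.H808
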