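import Vale.Agent.P315.H295.CapW
import Vale.Agent.P315.H846.Mk
import Vale.Agent.P315.H784.ErNum

/-!
P315, milestone 2: the ratio between the weight of a region and the width of its label, for the
system of curves of the query theorem; the conditions `H295.RatOK` on the ratio.
-/

set_option autoImplicit false

open Finset Filter

namespace Vale.Agent.P315.H808

open Vale.Agent.P315.C Vale.Agent.P315.Acc
open Vale.Agent.P315.H95
open Vale.Agent.P315.H846 (Cut2 q2 Inst2)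

variable {m ℓ μ B w0 J S H Kc D1 n Cn q κr : ℕ} {mc : C.Mach} {N : ℤ} {vis hid : Leaf}
  {S0 : ℕ → ℕ} {C : Chain (clsPar m ℓ μ B w0 J S H (Kc + 3) D1) vis hid n}

/-- The weight of a region is its mass. -/
theorem W_eq_mass (hI : Inst2 (clsPar m ℓ μ B w0 J S H (Kc + 3) D1) m w0 Kc κr vis hid n S0 C)
    (K : Cut2 (q2 m ℓ μ B w0 J S H Kc D1 mc n N Cn q) C)
    (w : (q2 m ℓ μ B w0 J S H Kc D1 mc n N Cn q).Seed) (j i : ℕ) :
    (K.al w).W j i = (mass m S0 j i : ℝ) := by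
  show bs (2 ^ m) C.w j i = _
  unfold bs mass
  push_cast
  exact sum_congr rfl fun r _ => hI.w _

/-- The ratio between the weight of the top of the region number `a` of the scale `s` above the
row `x` and the width of its label; the ratio is `1` for the root. -/
noncomputable def rW (K : Cut2 (q2 m ℓ μ B w0 J S H Kc D1 mc n N Cn q) C)
    (w : (q2 m ℓ μ B w0 J S H Kc D1 mc n N Cn q).Seed) (s a : ℕ)
    (x : Fin ((q2 m ℓ μ B w0 J S H Kc D1 mc n N Cn q).P.M ^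
      (q2 m ℓ μ B w0 J S H Kc D1 mc n N Cn q).n)) : ℝ :=
  if (a + 1) * 2 ^ s < n then
    (K.al w).W ((a + 1) * 2 ^ s) (x.val / (2 ^ m) ^ ((a + 1) * 2 ^ s)) /
      (wd m w0 ((a + 1) * 2 ^ s)
        (cl (C.lab ((a + 1) * 2 ^ s) (x.val / (2 ^ m) ^ ((a + 1) * 2 ^ s)))) : ℕ)
  else 1

theorem rW_of_lt (K : Cut2 (q2 m ℓ μ B w0 J S H Kc D1 mc n N Cn q) C)
    (w : (q2 m ℓ μ B w0 J S H Kc D1 mc n N Cn q).Seed) {s a : ℕ}
    (x : Fin ((q2 m ℓ μ B w0 J S H Kc D1 mc n N Cn q).P.M ^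
      (q2 m ℓ μ B w0 J S H Kc D1 mc n N Cn q).n)) (h : (a + 1) * 2 ^ s < n) :
    rW K w s a x = (K.al w).W ((a + 1) * 2 ^ s) (x.val / (2 ^ m) ^ ((a + 1) * 2 ^ s)) /
      (wd m w0 ((a + 1) * 2 ^ s)
        (cl (C.lab ((a + 1) * 2 ^ s) (x.val / (2 ^ m) ^ ((a + 1) * 2 ^ s)))) : ℕ) := if_pos h

/-- The mass of a region below the root against the width of its label. -/
theorem mass_lab_bounds
    (hI : Inst2 (clsPar m ℓ μ B w0 J S H (Kc + 3) D1) m w0 Kc κr vis hid n S0 C) {j i : ℕ}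
    (hj : j < n) (hi : i < (2 ^ m) ^ (n - j)) :
    0 < wd m w0 j (cl (C.lab j i)) ∧ mass m S0 j i ≤ wd m w0 j (cl (C.lab j i)) ∧
      wd m w0 j (cl (C.lab j i)) ≤ 8 * mass m S0 j i := by
  rw [hI.lab]
  exact ⟨wd_pos hI.path.w0_pos _ _, hI.path.mass_le_lab hj.le hi, hI.path.wd_le_lab hj⟩

section

variable [Nonempty (Fin ((q2 m ℓ μ B w0 J S H Kc D1 mc n N Cn q).P.M ^
  (q2 m ℓ μ B w0 J S H Kc D1 mc n N Cn q).n))]

/-- **Conditions on the ratio.** -/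
theorem ratOK_rW (hI : Inst2 (clsPar m ℓ μ B w0 J S H (Kc + 3) D1) m w0 Kc κr vis hid n S0 C)
    (K : Cut2 (q2 m ℓ μ B w0 J S H Kc D1 mc n N Cn q) C)
    (w : (q2 m ℓ μ B w0 J S H Kc D1 mc n N Cn q).Seed) {NL : ℕ → ℕ} {th th' : ℕ → ℝ}
    (h1 : ∀ s, 0 < th s) (h2 : ∀ s, 1 ≤ s → s ≤ K.smax → 5 / 4 * th' s < 1)
    (h3 : ∀ s, 1 ≤ s → s ≤ K.smax → (1 / 2 : ℝ) ^ NL s ≤ 3 / 32 * th s) :
    H295.RatOK (K.sys w) NL (rW K w) th th' where
  meas := by
    intro s a x y hxy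
    have h : x.val / (2 ^ m) ^ ((a + 1) * 2 ^ s) = y.val / (2 ^ m) ^ ((a + 1) * 2 ^ s) := hxy
    unfold rW
    rw [h]
  lo := by
    intro s a x _ _ _
    by_cases h : (a + 1) * 2 ^ s < n
    · have hx : x.val / (2 ^ m) ^ ((a + 1) * 2 ^ s) < (2 ^ m) ^ (n - (a + 1) * 2 ^ s) :=
        Along.quot_lt (M := 2 ^ m) (by positivity) h.le x
      obtain ⟨e1, e2, e3⟩ := mass_lab_bounds hI h hx
      rw [rW_of_lt K w x h, W_eq_mass hI, le_div_iff₀ (by exact_mod_cast e1)]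
      have e4 : ((wd m w0 ((a + 1) * 2 ^ s)
        (cl (C.lab ((a + 1) * 2 ^ s) (x.val / (2 ^ m) ^ ((a + 1) * 2 ^ s)))) : ℕ) : ℝ) ≤
        8 * (mass m S0 ((a + 1) * 2 ^ s) (x.val / (2 ^ m) ^ ((a + 1) * 2 ^ s)) : ℕ) := by
        exact_mod_cast e3
      linarith
    · unfold rW
      rw [if_neg h]
      norm_num
  hi := by
    intro s a x _ _ _
    by_cases h : (a + 1) * 2 ^ s < n
    · have hx : x.val / (2 ^ m) ^ ((a + 1) * 2 ^ s) < (2 ^ m) ^ (n - (a + 1) * 2 ^ s) :=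
        Along.quot_lt (M := 2 ^ m) (by positivity) h.le x
      obtain ⟨e1, e2, e3⟩ := mass_lab_bounds hI h hx
      rw [rW_of_lt K w x h, W_eq_mass hI, div_le_one (by exact_mod_cast e1)]
      exact_mod_cast e2
    · unfold rW
      rw [if_neg h]
  th_pos := h1
  th'_lt := h2
  NL_ge := h3

end

end Vale.Agent.P315.H808
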