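import Vale.Agent.P315.H808.SysOf

/-! The system of curves used in the query theorem: static index `b` = own index `lo + b` of the
root (the cut of the root index `N` is `lo = N - D smax`, no re-indexing). -/

set_option autoImplicit false

open Finset

namespace Vale.Agent.P315.H808

open Vale.Agent.P315.Acc

namespace Along

variable {M n : ℕ} (A : Along M n)

/-- The system of curves with static index `0` at the own index `lo` of the root. -/
noncomputable def cut [Nonempty (Fin (M ^ n))] (hM : 0 < M) (lo : ℤ) (smax NB D0 : ℕ)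
    (q : ℕ → ℕ) (hD0 : 0 < D0) (hn : 2 ^ smax ∣ n)
    (hq : ∀ j i, j < n → i < M ^ (n - j) → A.sft j i ≤ q j)
    (hfin : (∑ l ∈ range n, (q l : ℤ)) ≤ lo + (NB * (16 ^ smax * D0) : ℕ)) :
    Sys (Fin (M ^ n)) where
  n := n
  smax := smax
  NB := NB
  D0 := D0
  w := fun x => A.w x
  q := fun j x => (x : ℕ) / M ^ j
  e := fun j x b => A.e lo (min j n) x b
  hw := fun x => A.w_pos x
  hD0 := hD0
  hn := hn
  nest := fun _ _ _ h => nest h
  meas := fun j x y h => A.e_meas lo (quot_min h)
  anti := fun j x => A.e_anti hM lo (min_le_right j n) x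
  nonneg := fun j x b => A.e_nonneg _ _ _ _
  le_one := fun j x b => A.e_le_one hM lo (min_le_right j n) x _
  final := fun j x b h => A.e_final hM hq lo (min_le_right j n) x (by
    have h2 : ((NB * (16 ^ smax * D0) : ℕ) : ℤ) ≤ b := by exact_mod_cast h
    linarith)
  gain := fun j x b h => by
    have h1 : min (j + 1) n = j + 1 := min_eq_left (by omega)
    have h2 : min j n = j := min_eq_left (by omega)
    rw [h1, h2]
    exact A.e_gain hM lo h x _

section

variable [Nonempty (Fin (M ^ n))] {hM : 0 < M} {lo : ℤ} {smax NB D0 : ℕ}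
    {q : ℕ → ℕ} {hD0 : 0 < D0} {hn : 2 ^ smax ∣ n}
    {hq : ∀ j i, j < n → i < M ^ (n - j) → A.sft j i ≤ q j}
    {hfin : (∑ l ∈ range n, (q l : ℤ)) ≤ lo + (NB * (16 ^ smax * D0) : ℕ)}

theorem cut_e {j : ℕ} (hj : j ≤ n) (x : Fin (M ^ n)) (b : ℕ) :
    (A.cut hM lo smax NB D0 q hD0 hn hq hfin).e j x b = A.e lo j x b := by
  show A.e lo (min j n) x b = _
  rw [min_eq_left hj]

theorem cut_root (x : Fin (M ^ n)) (b : ℕ) :
    (A.cut hM lo smax NB D0 q hD0 hn hq hfin).e n x b = A.ex n 0 (lo + b) := by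
  rw [A.cut_e le_rfl]
  unfold e
  rw [Nat.div_eq_of_lt x.isLt, A.S_top]
  simp

/-- The root curve at the static index `b`. -/
theorem cut_E_root (b : ℕ) :
    (A.cut hM lo smax NB D0 q hD0 hn hq hfin).E
      (fun x => (A.cut hM lo smax NB D0 q hD0 hn hq hfin).e n x b) = A.ex n 0 (lo + b) := by
  simp only [A.cut_root]
  exact EE_const (A.cut hM lo smax NB D0 q hD0 hn hq hfin).hw _

/-- The total gain. -/
theorem cut_Gam_le :
    (A.cut hM lo smax NB D0 q hD0 hn hq hfin).Gam ≤
      EE (fun x : Fin (M ^ n) => A.w x) (fun x => max 0 ((A.S 0 x : ℝ) - lo)) := by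
  set Sy := A.cut hM lo smax NB D0 q hD0 hn hq hfin with hSy
  have hw : ∀ x, 0 < Sy.w x := Sy.hw
  have h1 : ∀ b, Sy.E (fun x => Sy.e 0 x b) - Sy.E (fun x => Sy.e Sy.n x b) ≤
      EE Sy.w (fun x : Fin (M ^ n) => A.e lo 0 x b) := by
    intro b
    have h2 : 0 ≤ Sy.E (fun x => Sy.e Sy.n x b) := EE_nonneg hw fun x => Sy.nonneg _ _ _
    have h3 : Sy.E (fun x => Sy.e 0 x b) = EE Sy.w (fun x : Fin (M ^ n) => A.e lo 0 x b) := by
      unfold Sys.E
      congr 1
    linarith
  have h4 : Sy.Gam ≤ ∑ b ∈ range Sy.T, EE Sy.w (fun x : Fin (M ^ n) => A.e lo 0 x b) :=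
    sum_le_sum fun b _ => h1 b
  rw [← EE_sum] at h4
  refine h4.trans ?_
  exact EE_mono hw fun x => A.sum_e_leaf hM lo x Sy.T

/-- Every level has at least the excess of the root. -/
theorem cut_mass (b : ℕ) :
    (n : ℝ) * A.ex n 0 (lo + b) ≤
      ∑ j ∈ range n, (A.cut hM lo smax NB D0 q hD0 hn hq hfin).E
        (fun x => (A.cut hM lo smax NB D0 q hD0 hn hq hfin).e j x b) := by
  set Sy := A.cut hM lo smax NB D0 q hD0 hn hq hfin with hSy
  have hw : ∀ x, 0 < Sy.w x := Sy.hw
  have key : ∀ k, k ≤ n → Sy.E (fun x => Sy.e n x b) ≤ Sy.E (fun x => Sy.e (n - k) x b) := by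
    intro k
    induction k with
    | zero => intro _; exact le_rfl
    | succ k ih =>
      intro hk
      refine (ih (by omega)).trans ?_
      have h1 : n - k = (n - (k + 1)) + 1 := by omega
      rw [h1]
      have h2 : Sy.E (fun x => Sy.e (n - (k + 1) + 1) x b) ≤
          Sy.E (fun x => avg Sy.w Sy.q (n - (k + 1) + 1) (fun y => Sy.e (n - (k + 1)) y b) x) :=
        EE_mono hw fun x => Sy.gain (n - (k + 1)) x b (show n - (k + 1) < n by omega)
      refine h2.trans (le_of_eq ?_)
      exact EE_avg hw _ _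
  have h0 : Sy.E (fun x => Sy.e n x b) = A.ex n 0 (lo + b) := A.cut_E_root b
  calc (n : ℝ) * A.ex n 0 (lo + b) = ∑ _j ∈ range n, A.ex n 0 (lo + b) := by simp
    _ ≤ _ := by
      refine sum_le_sum fun j hj => ?_
      have := key (n - j) (by omega)
      have hj' : n - (n - j) = j := by have := mem_range.1 hj; omega
      rw [hj', h0] at this
      exact this

end

end Along

end Vale.Agent.P315.H808
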