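import Vale.Agent.P315.C.Stmt
import Vale.Agent.P315.H731.Avg

/-! Query theorem, first reduction: it is enough to bound the mean normalised excess of the root
and the mean number of cells read. -/

set_option autoImplicit false

open Finset

namespace Vale.Agent.P315.H808

open Vale.Agent.P315.C Vale.Agent.P315.H659 Vale.Agent.P315.H731

variable {Q : QPar}

/-- The data along the comparison path for the seed `w`. -/
noncomputable def QAlong (Q : QPar) {vis hid : Leaf} {C : Chain Q.P vis hid Q.n} {η : ℝ}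
    (hI : Inst Q.P vis hid Q.n η C) (w : Q.Seed) : Along Q.P.M Q.n :=
  C.along Q.mc (toRnd Q.P.J w) hI.pt hI.hid_le

theorem DE_root {vis hid : Leaf} {C : Chain Q.P vis hid Q.n} {η : ℝ}
    (hI : Inst Q.P vis hid Q.n η C) (w : Q.Seed) :
    (QAlong Q hI w).DE Q.n 0 = ∑ i ∈ range Q.K, C.d i := by
  show bs Q.P.M (fun r => C.d r + 0) Q.n 0 = _
  unfold bs QPar.K
  simp

theorem W_root {vis hid : Leaf} {C : Chain Q.P vis hid Q.n} {η : ℝ}
    (hI : Inst Q.P vis hid Q.n η C) (w : Q.Seed) :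
    (QAlong Q hI w).W Q.n 0 = ∑ i ∈ range Q.K, C.w i := by
  show bs Q.P.M C.w Q.n 0 = _
  unfold bs QPar.K
  simp

/-- Certified cost of the root from its normalised excess. -/
theorem cR_root_le (hM : 0 < Q.P.M) {vis hid : Leaf} {C : Chain Q.P vis hid Q.n} {η : ℝ}
    (hI : Inst Q.P vis hid Q.n η C) (w : Q.Seed) :
    (cR Q.P Q.mc (toRnd Q.P.J w) vis hid Q.n 0 0 Q.N (C.pos 0) (C.pos Q.K) : ℝ) ≤
      ∑ i ∈ range Q.K, C.d i +
        (∑ i ∈ range Q.K, C.w i) * (QAlong Q hI w).ex Q.n 0 Q.N := by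
  have h := (QAlong Q hI w).C_le_ex hM Q.n 0 Q.N
  rw [DE_root, W_root] at h
  have h2 : (QAlong Q hI w).C Q.n 0 Q.N =
      (cR Q.P Q.mc (toRnd Q.P.J w) vis hid Q.n 0 0 Q.N (C.pos 0) (C.pos Q.K) : ℝ) := by
    show (cR Q.P Q.mc (toRnd Q.P.J w) vis hid Q.n 0 (C.lab Q.n 0) Q.N
      (C.pos (0 * Q.P.M ^ Q.n)) (C.pos ((0 + 1) * Q.P.M ^ Q.n)) : ℝ) = _
    rw [hI.root]
    simp [QPar.K]
  rw [h2] at h
  exact h

/-- **First reduction of the query theorem.** -/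
theorem good_of_ex (hM : 0 < Q.P.M) (hq : 0 < Q.q) {η ε A : ℝ}
    (hval : ∀ (vis hid : Leaf) (C : Chain Q.P vis hid Q.n) (hI : Inst Q.P vis hid Q.n η C),
      (∀ i, C.w i = Q.P.ℓ) →
      av (fun w : Q.Seed => (QAlong Q hI w).ex Q.n 0 Q.N) ≤ ε)
    (harea : ∀ (vis hid : Leaf) (C : Chain Q.P vis hid Q.n), Inst Q.P vis hid Q.n η C →
      (∀ i, C.w i = Q.P.ℓ) →
      av (fun w : Q.Seed =>
        ((rd Q.P Q.mc (toRnd Q.P.J w) vis hid Q.n 0 0 Q.N).card : ℝ)) ≤ A) :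
    Q.Good η ε A := by
  intro vis hid C hI hw
  refine ⟨?_, harea vis hid C hI hw⟩
  have : Nonempty (Fin Q.q) := ⟨⟨0, hq⟩⟩
  have hW : ∑ i ∈ range Q.K, C.w i = Q.P.ℓ * Q.K := by
    rw [sum_congr rfl fun i _ => hw i, sum_const, card_range, nsmul_eq_mul, mul_comm]
  have h1 : av (fun w : Q.Seed =>
      (cR Q.P Q.mc (toRnd Q.P.J w) vis hid Q.n 0 0 Q.N (C.pos 0) (C.pos Q.K) : ℝ)) ≤
      av (fun w : Q.Seed => ∑ i ∈ range Q.K, C.d i +
        ((Q.P.ℓ : ℝ) * Q.K) * (QAlong Q hI w).ex Q.n 0 Q.N) := by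
    refine av_mono fun w => ?_
    have := cR_root_le hM hI w
    rwa [hW] at this
  refine h1.trans ?_
  rw [av_add, av_const, av_const_mul]
  have h2 := hval vis hid C hI hw
  have h3 : (0 : ℝ) ≤ (Q.P.ℓ : ℝ) * Q.K := by positivity
  nlinarith [mul_le_mul_of_nonneg_left h2 h3]

end Vale.Agent.P315.H808
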