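import Vale.Agent.P315.H659.Seed
import Vale.Agent.P315.H858.Cut
import Vale.Agent.P315.H679.AccDefs
import Vale.Agent.P315.H808.AlgAlong

/-! The expectation over the seeds of the positive part of the total shift of a leaf minus the cut
(generic in labels, penalties, weights). -/

set_option autoImplicit false

open Finset

namespace Vale.Agent.P315.H808

open Vale.Agent.P315.C Vale.Agent.P315.H659 Vale.Agent.P315.H731

namespace Chain

variable {P : Par} {vis hid : Leaf} {n : ℕ} (K : Chain P vis hid n)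

/-- Total penalty of a row. -/
def penSum (x : ℕ) : ℕ :=
  ∑ l ∈ range n, P.pen (l + 1) 1 (K.lab (l + 1) (x / P.M ^ l / P.M)) (K.lab l (x / P.M ^ l))

theorem S_zero (mc : Mach) (ω : Rnd) (h0 : ∃ p, P.μ ∣ p ∧ p ≤ P.B ∧ P.adm p p)
    (hle : ∀ i p q, P.adm p q → hid i p q ≤ vis i p q) (x : ℕ) :
    (K.along mc ω h0 hle).S 0 x =
      ∑ l ∈ range n, ω.xi (l + 1) (x / P.M ^ l % P.M) + K.penSum x := by
  show ∑ l ∈ Ico 0 n, K.sft ω l (x / P.M ^ l) = _
  rw [← range_eq_Ico]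
  unfold sft penSum
  rw [sum_add_distrib]

end Chain

/-- Numbers of the jitters above a row. -/
def lin {n M : ℕ} (hM : 0 < M) (x : ℕ) (l : Fin n) : Fin (n + 1) × Fin M :=
  (⟨l + 1, by omega⟩, ⟨x / M ^ (l : ℕ) % M, Nat.mod_lt _ hM⟩)

theorem lin_injective {n M : ℕ} (hM : 0 < M) (x : ℕ) :
    Function.Injective (lin (n := n) hM x) := by
  intro l l' h
  unfold lin at h
  have := (Prod.mk.inj h).1
  have := Fin.ext_iff.1 this
  simp only at this
  exact Fin.ext (by omega)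

theorem sum_xi_eq {n M S Cn q : ℕ} (hM : 0 < M) (J : ℕ) (w : Ix n M S Cn → Fin q) (x : ℕ) :
    ∑ l ∈ range n, (toRnd J w).xi (l + 1) (x / M ^ l % M) =
      ∑ i ∈ univ.image (lin (n := n) hM x), ((jits J w i : ℕ)) := by
  rw [sum_image fun a _ b _ h => lin_injective hM x h,
    ← Fin.sum_univ_eq_sum_range (fun l => (toRnd J w).xi (l + 1) (x / M ^ l % M)) n]
  refine sum_congr rfl fun l _ => ?_
  exact toRnd_xi J w ⟨l + 1, by omega⟩ ⟨x / M ^ (l : ℕ) % M, Nat.mod_lt _ hM⟩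

/-- Expected positive part for one row. -/
theorem av_pos_part {n M S Cn q : ℕ} (hM : 0 < M) {J : ℕ} (hq : 0 < q) (hJ : J + 1 ∣ q) (x : ℕ)
    {lo : ℝ} (hlo : lo ≤ (n : ℝ) * J / 2) :
    av (fun w : Ix n M S Cn → Fin q =>
      max 0 (((∑ l ∈ range n, (toRnd J w).xi (l + 1) (x / M ^ l % M) : ℕ) : ℝ) - lo)) ≤
      ((n : ℝ) * J / 2 - lo) + J * Real.sqrt n / 2 := by
  have h1 : av (fun w : Ix n M S Cn → Fin q =>
      max 0 (((∑ l ∈ range n, (toRnd J w).xi (l + 1) (x / M ^ l % M) : ℕ) : ℝ) - lo)) =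
      av (fun ξ : Fin (n + 1) × Fin M → Fin (J + 1) =>
        max 0 ((∑ i ∈ univ.image (lin (n := n) hM x), ((ξ i : ℕ) : ℝ)) - lo)) := by
    rw [← av_jits hq hJ (S := S) (Cn := Cn) (fun ξ : Fin (n + 1) × Fin M → Fin (J + 1) =>
        max 0 ((∑ i ∈ univ.image (lin (n := n) hM x), ((ξ i : ℕ) : ℝ)) - lo))]
    refine av_congr fun w => ?_
    rw [sum_xi_eq hM J w x]
    push_cast
    rfl
  rw [h1]
  have hcard : (univ.image (lin (n := n) hM x)).card = n := by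
    rw [card_image_of_injective _ (lin_injective hM x)]
    simp
  have h2 := H858.jitter_pos_part J (univ.image (lin (n := n) hM x)) ((n : ℝ) * J / 2 - lo)
    (by linarith)
  rw [hcard] at h2
  unfold av
  have hc : (0 : ℝ) < Fintype.card (Fin (n + 1) × Fin M → Fin (J + 1)) := by
    exact_mod_cast Fintype.card_pos
  rw [div_le_iff₀ hc, mul_comm]
  have h3 : (n : ℝ) * J / 2 - ((n : ℝ) * J / 2 - lo) = lo := by ring
  rw [h3] at h2
  exact h2

/-- **Expected VAL term**, weighted, with penalties. -/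
theorem av_val {P : Par} {vis hid : Leaf} {n : ℕ} (K : Chain P vis hid n) (mc : Mach)
    (h0 : ∃ p, P.μ ∣ p ∧ p ≤ P.B ∧ P.adm p p)
    (hle : ∀ i p q, P.adm p q → hid i p q ≤ vis i p q) (hM : 0 < P.M) {S Cn q J : ℕ}
    (hq : 0 < q) (hJ : J + 1 ∣ q) {lo : ℤ} (hlo : (lo : ℝ) ≤ (n : ℝ) * J / 2) :
    av (fun w : Ix n P.M S Cn → Fin q =>
      Acc.EE (fun x : Fin (P.M ^ n) => K.w x)
        (fun x => max 0 (((K.along mc (toRnd J w) h0 hle).S 0 x : ℝ) - lo))) ≤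
      ((n : ℝ) * J / 2 - lo) + J * Real.sqrt n / 2 +
        Acc.EE (fun x : Fin (P.M ^ n) => K.w x) (fun x => (K.penSum x : ℝ)) := by
  have : Nonempty (Fin (P.M ^ n)) := ⟨⟨0, Nat.pow_pos hM⟩⟩
  have hw : ∀ x : Fin (P.M ^ n), 0 < K.w x := fun x => K.w_pos x
  have h1 : av (fun w : Ix n P.M S Cn → Fin q =>
      Acc.EE (fun x : Fin (P.M ^ n) => K.w x)
        (fun x => max 0 (((K.along mc (toRnd J w) h0 hle).S 0 x : ℝ) - lo))) =
      Acc.EE (fun x : Fin (P.M ^ n) => K.w x) (fun x => av (fun w : Ix n P.M S Cn → Fin q =>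
        max 0 (((K.along mc (toRnd J w) h0 hle).S 0 x : ℝ) - lo))) := by
    unfold Acc.EE
    rw [av_div_const, av_sum]
    congr 1
    refine sum_congr rfl fun x _ => ?_
    rw [av_const_mul]
  rw [h1]
  have h2 : ((n : ℝ) * J / 2 - lo) + J * Real.sqrt n / 2 +
        Acc.EE (fun x : Fin (P.M ^ n) => K.w x) (fun x => (K.penSum x : ℝ)) =
      Acc.EE (fun x : Fin (P.M ^ n) => K.w x) (fun x =>
        (((n : ℝ) * J / 2 - lo) + J * Real.sqrt n / 2) + (K.penSum x : ℝ)) := by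
    rw [Acc.EE_add, Acc.EE_const hw]
  rw [h2]
  refine Acc.EE_mono hw fun x => ?_
  have h3 := av_pos_part (S := S) (Cn := Cn) hM hq hJ x hlo
  refine le_trans ?_ (add_le_add_left h3 _)
  have : Nonempty (Fin q) := ⟨⟨0, hq⟩⟩
  have h4 : av (fun w : Ix n P.M S Cn → Fin q =>
      max 0 (((∑ l ∈ range n, (toRnd J w).xi (l + 1) ((x : ℕ) / P.M ^ l % P.M) : ℕ) : ℝ) - lo)) +
        (K.penSum x : ℝ) =
      av (fun w : Ix n P.M S Cn → Fin q =>
        max 0 (((∑ l ∈ range n, (toRnd J w).xi (l + 1) ((x : ℕ) / P.M ^ l % P.M) : ℕ) : ℝ) - lo) +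
          (K.penSum x : ℝ)) := by
    rw [av_add, av_const]
  rw [h4]
  refine av_mono fun w => ?_
  rw [K.S_zero mc (toRnd J w) h0 hle x]
  push_cast
  have hp : (0 : ℝ) ≤ (K.penSum x : ℝ) := Nat.cast_nonneg _
  refine max_le (add_nonneg (le_max_left _ _) hp) ?_
  have := le_max_right (0 : ℝ)
    ((∑ l ∈ range n, ((toRnd J w).xi (l + 1) ((x : ℕ) / P.M ^ l % P.M) : ℝ)) - lo)
  linarith

end Vale.Agent.P315.H808
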