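import Vale.Agent.P315.H241.TheoremA
import Vale.Agent.P315.H808.Cut
import Vale.Agent.P315.H808.QT1
import Vale.Agent.P315.H808.ValSeed

/-! Query theorem, value half: Theorem A averaged over the seeds. -/

set_option autoImplicit false

open Finset Filter

namespace Vale.Agent.P315.H808

open Vale.Agent.P315.C Vale.Agent.P315.H659 Vale.Agent.P315.H731 Vale.Agent.P315.Acc

/-- Numbers of the static coordinate: root index `lo` at the static index `0`, scales `≤ smax`,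
`NB` blocks of the largest scale, blocks of length `D0` at the scale `0`. -/
structure CutPar (Q : QPar) {vis hid : Leaf} (C : Chain Q.P vis hid Q.n) where
  lo : ℤ
  smax : ℕ
  NB : ℕ
  D0 : ℕ
  /-- bound for the penalties along the comparison path -/
  pb : ℕ
  hM : 0 < Q.P.M
  hq : 0 < Q.q
  hD0 : 0 < D0
  hn : 2 ^ smax ∣ Q.n
  hpen : ∀ j i, j < Q.n → i < Q.P.M ^ (Q.n - j) →
    Q.P.pen (j + 1) 1 (C.lab (j + 1) (i / Q.P.M)) (C.lab j i) ≤ pb
  hfin : ((Q.n * (Q.P.J + pb) : ℕ) : ℤ) ≤ lo + (NB * (16 ^ smax * D0) : ℕ)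
  hN : Q.N = lo + (16 ^ smax * D0 : ℕ)

namespace CutPar

variable {Q : QPar} {vis hid : Leaf} {C : Chain Q.P vis hid Q.n} (K : CutPar Q C)

include K

theorem nonempty : Nonempty (Fin (Q.P.M ^ Q.n)) := ⟨⟨0, Nat.pow_pos K.hM⟩⟩

theorem sft_le {η : ℝ} (hI : Inst Q.P vis hid Q.n η C) (w : Q.Seed) (j i : ℕ)
    (hj : j < Q.n) (hi : i < Q.P.M ^ (Q.n - j)) :
    (QAlong Q hI w).sft j i ≤ Q.P.J + K.pb :=
  Nat.add_le_add (toRnd_xi_le _ _ _ _) (K.hpen j i hj hi)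

theorem hfin' : (∑ _l ∈ range Q.n, ((Q.P.J + K.pb : ℕ) : ℤ)) ≤
    K.lo + (K.NB * (16 ^ K.smax * K.D0) : ℕ) := by
  have := K.hfin
  rw [sum_const, card_range, nsmul_eq_mul]
  push_cast at this ⊢
  exact this

/-- The system of curves of the seed `w`. -/
noncomputable def sys [Nonempty (Fin (Q.P.M ^ Q.n))] {η : ℝ}
    (hI : Inst Q.P vis hid Q.n η C) (w : Q.Seed) : Sys (Fin (Q.P.M ^ Q.n)) :=
  (QAlong Q hI w).cut K.hM K.lo K.smax K.NB K.D0 (fun _ => Q.P.J + K.pb) K.hD0 K.hn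
    (K.sft_le hI w) K.hfin'

omit K in
theorem nb_smax {X : Type} [Fintype X] [Nonempty X] (S : Sys X) : S.nb S.smax = S.NB := by
  unfold Sys.nb
  simp

end CutPar

/-- Average of a sum over the offsets. -/
theorem av_avO {Ω X : Type} [Fintype Ω] [Fintype X] [Nonempty X] (S : Ω → Sys X) {D : ℕ}
    (hD : ∀ w, (S w).D (S w).smax = D) (f : Ω → ℕ → ℝ) {a : ℝ} (hD0 : 0 < D)
    (h : ∀ o, o < D → av (fun w => f w o) ≤ a) : av (fun w => (S w).avO (f w)) ≤ a := by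
  have h1 : av (fun w => (S w).avO (f w)) = (∑ o ∈ range D, av (fun w => f w o)) / D := by
    rw [← av_sum, ← av_div_const]
    refine av_congr fun w => ?_
    unfold Sys.avO
    rw [hD w]
  rw [h1, div_le_iff₀ (by exact_mod_cast hD0)]
  calc ∑ o ∈ range D, av (fun w => f w o) ≤ ∑ _o ∈ range D, a :=
        sum_le_sum fun o ho => h o (mem_range.1 ho)
    _ = a * D := by rw [sum_const, card_range, nsmul_eq_mul, mul_comm]

/-- **Value half of the query theorem**, all error terms as hypotheses. -/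
theorem qt_value {eps0 CL : ℝ} (he : 0 < eps0) (hCL : 0 ≤ CL) :
    ∀ᶠ m : ℕ in atTop, ∀ (Q : QPar) [Nonempty (Fin (Q.P.M ^ Q.n))]
      (vis hid : Leaf) (C : Chain Q.P vis hid Q.n) (K : CutPar Q C) (η : ℝ)
      (hI : Inst Q.P vis hid Q.n η C)
      (R : ∀ w : Q.Seed, Acc.Mach (K.sys hI w)) (P : ∀ w : Q.Seed, H295.Thr (K.sys hI w) (R w))
      (C7 : ℝ) (L : ℕ → ℝ)
      (Cap : Q.Seed → ℕ → ℕ → ℕ → Fin (Q.P.M ^ Q.n) → ℝ)
      (Fail : Q.Seed → ℕ → ℕ → ℕ → Fin (Q.P.M ^ Q.n) → Prop) (VA HA CA FA : ℝ),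
      8 ≤ C7 → K.D0 = m ^ 2 → (∀ w, (P w).th = Par.thm m) → (∀ w, (P w).th' = Par.thpm eps0 m) →
      (∀ w s, 0 ≤ (P w).c s) → (∀ w s, 1 ≤ s → s ≤ K.smax → 3 * (P w).c s < 1) →
      (∀ w s t, 1 ≤ s → s + 2 ≤ t → t ≤ K.smax → 80 * (P w).c t ≤ 3 * (P w).th s) →
      (∀ s, 0 ≤ L s) → (∀ s, L s ≤ CL * m * 2 ^ s) → (∀ w o s a x, 0 ≤ Cap w o s a x) →
      (5 / 2 + 5 / 2 * (CL * m) + 12 * m) * 4 ^ K.smax ≤ eps0 * Q.n →
      Q.n * (K.NB * Par.thm m K.smax) ≤ eps0 * Q.n →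
      (∀ w o, o < 16 ^ K.smax * K.D0 → ∀ s ∈ Icc 1 K.smax, ∀ a < Q.n / 2 ^ s,
        H295.H3bU (R w) (P w).act C7 L (fun _ _ _ => True) (Cap w) (Fail w) o s a) →
      av (fun w => EE (fun x : Fin (Q.P.M ^ Q.n) => C.w x)
        (fun x => max 0 (((QAlong Q hI w).S 0 x : ℝ) - K.lo))) ≤ VA →
      (∀ o, o < 16 ^ K.smax * K.D0 →
        av (fun w => H295.He (K.sys hI w) (Par.thm m 0 / 2) o) ≤ HA) →
      (∀ w, ∑ s ∈ Icc 1 K.smax, (K.sys hI w).avO (fun o => H295.TA (K.sys hI w) s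
        (fun a x => Cap w o s a x)) ≤ CA) →
      (∀ o, o < 16 ^ K.smax * K.D0 → av (fun w => ∑ s ∈ Icc 1 K.smax,
        2 ^ s * H295.TA (K.sys hI w) s (fun a x => ind (Fail w o s a x))) ≤ FA) →
      Q.n * av (fun w => (QAlong Q hI w).ex Q.n 0 Q.N) ≤
        (4 + eps0) * VA + 4 * eps0 * Q.n + HA + CA + FA := by
  filter_upwards [H241.theoremA he hCL] with m hm
  intro Q _ vis hid C K η hI R P C7 L Cap Fail VA HA CA FA hC7 hD0 hth hth' hc0 hc1 hc2 hL0 hL hCap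
    hS hlast hb hVA hHA hCA hFA
  have hne : Nonempty (Fin Q.q) := ⟨⟨0, K.hq⟩⟩
  have hDpos : 0 < 16 ^ K.smax * K.D0 := Nat.mul_pos (by positivity) K.hD0
  -- pathwise inequality
  have hpath : ∀ w : Q.Seed, Q.n * (QAlong Q hI w).ex Q.n 0 Q.N ≤
      (4 + eps0) * EE (fun x : Fin (Q.P.M ^ Q.n) => C.w x)
        (fun x => max 0 (((QAlong Q hI w).S 0 x : ℝ) - K.lo)) + 4 * eps0 * Q.n +
        (K.sys hI w).avO (H295.He (K.sys hI w) (Par.thm m 0 / 2)) + CA +
        (K.sys hI w).avO (fun o => ∑ s ∈ Icc 1 K.smax,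
          2 ^ s * H295.TA (K.sys hI w) s (fun a x => ind (Fail w o s a x))) := by
    intro w
    have h1 := hm (Fin (Q.P.M ^ Q.n)) (K.sys hI w) (R w) (P w) C7 L (fun _ _ _ => True) (Cap w)
      (Fail w) hC7 hD0 (hth w) (hth' w) (hc0 w) (hc1 w) (hc2 w) hL0 hL (hCap w) hS
      (by rw [CutPar.nb_smax]; exact hlast) (hb w)
    have h2 := (QAlong Q hI w).cut_mass (hM := K.hM) (lo := K.lo) (smax := K.smax) (NB := K.NB)
      (D0 := K.D0) (q := fun _ => Q.P.J + K.pb) (hD0 := K.hD0) (hn := K.hn)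
      (hq := K.sft_le hI w) (hfin := K.hfin') (16 ^ K.smax * K.D0)
    have h3 := (QAlong Q hI w).cut_Gam_le (hM := K.hM) (lo := K.lo) (smax := K.smax) (NB := K.NB)
      (D0 := K.D0) (q := fun _ => Q.P.J + K.pb) (hD0 := K.hD0) (hn := K.hn)
      (hq := K.sft_le hI w) (hfin := K.hfin')
    rw [← K.hN] at h2
    have h4 : (K.sys hI w).Gam ≤ EE (fun x : Fin (Q.P.M ^ Q.n) => C.w x)
        (fun x => max 0 (((QAlong Q hI w).S 0 x : ℝ) - K.lo)) := h3
    have h5 : Q.n * (QAlong Q hI w).ex Q.n 0 Q.N ≤ ∑ j ∈ range (K.sys hI w).n,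
        (K.sys hI w).E (fun x => (K.sys hI w).e j x ((K.sys hI w).D (K.sys hI w).smax)) := h2
    have h6 := mul_le_mul_of_nonneg_left h4 (by linarith : 0 ≤ 4 + eps0)
    have h7 : ∑ s ∈ Icc 1 (K.sys hI w).smax,
        ((K.sys hI w).avO (fun o => H295.TA (K.sys hI w) s (fun a x => Cap w o s a x)) +
          2 ^ s * (K.sys hI w).avO (fun o => H295.TA (K.sys hI w) s
            (fun a x => ind (Fail w o s a x))) +
          2 ^ s * H295.TA (K.sys hI w) s (fun _ _ => ind (¬ True))) ≤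
        CA + (K.sys hI w).avO (fun o => ∑ s ∈ Icc 1 K.smax,
          2 ^ s * H295.TA (K.sys hI w) s (fun a x => ind (Fail w o s a x))) := by
      have h8 : ∀ s, H295.TA (K.sys hI w) s (fun _ _ => ind (¬ True)) = 0 := by
        intro s
        unfold H295.TA
        refine sum_eq_zero fun a _ => ?_
        have : ind (¬ True) = 0 := ind_false (by simp)
        rw [this]
        exact EE_const (K.sys hI w).hw 0
      rw [sum_congr rfl fun s _ => by rw [h8 s, mul_zero, add_zero], sum_add_distrib]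
      refine add_le_add (hCA w) (le_of_eq ?_)
      show ∑ s ∈ Icc 1 K.smax, 2 ^ s * (K.sys hI w).avO _ = _
      rw [H241.avO_sum]
      exact sum_congr rfl fun s _ => (H241.avO_mul_left _ _ _).symm
    refine (h5.trans h1).trans ?_
    refine (add_le_add (add_le_add (add_le_add h6 le_rfl) le_rfl) h7).trans (le_of_eq ?_)
    rw [← add_assoc]
    rfl
  have h1 : Q.n * av (fun w => (QAlong Q hI w).ex Q.n 0 Q.N) ≤
      av (fun w => (4 + eps0) * EE (fun x : Fin (Q.P.M ^ Q.n) => C.w x)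
        (fun x => max 0 (((QAlong Q hI w).S 0 x : ℝ) - K.lo)) + 4 * eps0 * Q.n +
        (K.sys hI w).avO (H295.He (K.sys hI w) (Par.thm m 0 / 2)) + CA +
        (K.sys hI w).avO (fun o => ∑ s ∈ Icc 1 K.smax,
          2 ^ s * H295.TA (K.sys hI w) s (fun a x => ind (Fail w o s a x)))) := by
    rw [← av_const_mul]
    exact av_mono hpath
  refine h1.trans ?_
  rw [av_add, av_add, av_add, av_add, av_const_mul, av_const, av_const]
  have h2 : av (fun w => (K.sys hI w).avO (H295.He (K.sys hI w) (Par.thm m 0 / 2))) ≤ HA :=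
    av_avO (fun w => K.sys hI w) (D := 16 ^ K.smax * K.D0) (fun w => rfl)
      (fun w o => H295.He (K.sys hI w) (Par.thm m 0 / 2) o) hDpos hHA
  have h3 : av (fun w => (K.sys hI w).avO (fun o => ∑ s ∈ Icc 1 K.smax,
      2 ^ s * H295.TA (K.sys hI w) s (fun a x => ind (Fail w o s a x)))) ≤ FA :=
    av_avO (fun w => K.sys hI w) (D := 16 ^ K.smax * K.D0) (fun w => rfl) _ hDpos hFA
  have h4 := mul_le_mul_of_nonneg_left hVA (by linarith : 0 ≤ 4 + eps0)
  linarith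

end Vale.Agent.P315.H808
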