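import Vale.Agent.P315.H808.QT2

/-! Query theorem: `QPar.Good` from the rows (machine inequality, heavy blocks, capacities,
failures), the area half and the numbers. -/

set_option autoImplicit false

open Finset Filter

namespace Vale.Agent.P315.H808

open Vale.Agent.P315.C Vale.Agent.P315.H659 Vale.Agent.P315.H731 Vale.Agent.P315.Acc

/-- What the machines and the jitters give, for one instance: machines `R`, thresholds `P`,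
machine inequality, and the error terms. -/
def RowsOK (eps0 CL : ℝ) (m : ℕ) (HA CA FA : ℝ) {Q : QPar} {vis hid : Leaf}
    {C : Chain Q.P vis hid Q.n} (K : CutPar Q C) [Nonempty (Fin (Q.P.M ^ Q.n))] {η : ℝ}
    (hI : Inst Q.P vis hid Q.n η C) : Prop :=
  ∃ (R : ∀ w : Q.Seed, Acc.Mach (K.sys hI w)) (P : ∀ w : Q.Seed, H295.Thr (K.sys hI w) (R w))
    (C7 : ℝ) (L : ℕ → ℝ) (Cap : Q.Seed → ℕ → ℕ → ℕ → Fin (Q.P.M ^ Q.n) → ℝ)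
    (Fail : Q.Seed → ℕ → ℕ → ℕ → Fin (Q.P.M ^ Q.n) → Prop),
    8 ≤ C7 ∧ (∀ w, (P w).th = Par.thm m) ∧ (∀ w, (P w).th' = Par.thpm eps0 m) ∧
    (∀ w s, 0 ≤ (P w).c s) ∧ (∀ w s, 1 ≤ s → s ≤ K.smax → 3 * (P w).c s < 1) ∧
    (∀ w s t, 1 ≤ s → s + 2 ≤ t → t ≤ K.smax → 80 * (P w).c t ≤ 3 * (P w).th s) ∧
    (∀ s, 0 ≤ L s) ∧ (∀ s, L s ≤ CL * m * 2 ^ s) ∧ (∀ w o s a x, 0 ≤ Cap w o s a x) ∧
    (∀ w o, o < 16 ^ K.smax * K.D0 → ∀ s ∈ Icc 1 K.smax, ∀ a < Q.n / 2 ^ s,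
      H295.H3bU (R w) (P w).act C7 L (fun _ _ _ => True) (Cap w) (Fail w) o s a) ∧
    (∀ o, o < 16 ^ K.smax * K.D0 →
      av (fun w => H295.He (K.sys hI w) (Par.thm m 0 / 2) o) ≤ HA) ∧
    (∀ w, ∑ s ∈ Icc 1 K.smax, (K.sys hI w).avO (fun o => H295.TA (K.sys hI w) s
      (fun a x => Cap w o s a x)) ≤ CA) ∧
    (∀ o, o < 16 ^ K.smax * K.D0 → av (fun w => ∑ s ∈ Icc 1 K.smax,
      2 ^ s * H295.TA (K.sys hI w) s (fun a x => ind (Fail w o s a x))) ≤ FA)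

/-- The cut for the family without penalties. -/
def mkCut {Q : QPar} {vis hid : Leaf} (C : Chain Q.P vis hid Q.n) (S D0 : ℕ) (hM : 0 < Q.P.M)
    (hq : 0 < Q.q) (hD0 : 0 < D0) (hn : 2 ^ S ∣ Q.n) (hpen : ∀ j e a a', Q.P.pen j e a a' = 0)
    (hN : 0 ≤ Q.N) : CutPar Q C where
  lo := Q.N - (16 ^ S * D0 : ℕ)
  smax := S
  NB := Q.n * Q.P.J + 1
  D0 := D0
  pb := 0
  hM := hM
  hq := hq
  hD0 := hD0
  hn := hn
  hpen := fun j i _ _ => (hpen _ _ _ _).le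
  hfin := by
    have h1 : 1 ≤ 16 ^ S * D0 := Nat.mul_pos (by positivity) hD0
    have h2 : Q.n * (Q.P.J + 0) + 16 ^ S * D0 ≤ (Q.n * Q.P.J + 1) * (16 ^ S * D0) := by
      rw [add_zero, add_mul, one_mul]
      exact Nat.add_le_add_right (Nat.le_mul_of_pos_right _ h1) _
    have h3 : ((Q.n * (Q.P.J + 0) + 16 ^ S * D0 : ℕ) : ℤ) ≤
        (((Q.n * Q.P.J + 1) * (16 ^ S * D0) : ℕ) : ℤ) := by exact_mod_cast h2
    rw [Nat.cast_add] at h3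
    linarith
  hN := by ring

/-- **`QPar.Good` from the rows.** -/
theorem good_of_rows {eps0 CL : ℝ} (he : 0 < eps0) (hCL : 0 ≤ CL) :
    ∀ᶠ m : ℕ in atTop, ∀ (Q : QPar) (S : ℕ) (η ε A HA CA FA : ℝ),
      0 < Q.P.M → 0 < Q.q → Q.P.J + 1 ∣ Q.q → 0 < Q.n → 2 ^ S ∣ Q.n →
      (∀ j e a a', Q.P.pen j e a a' = 0) → 0 ≤ Q.N → (Q.N : ℝ) ≤ (Q.n : ℝ) * Q.P.J / 2 →
      (5 / 2 + 5 / 2 * (CL * m) + 12 * m) * 4 ^ S ≤ eps0 * Q.n →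
      Q.n * (((Q.n * Q.P.J + 1 : ℕ) : ℝ) * Par.thm m S) ≤ eps0 * Q.n →
      (4 + eps0) * (((Q.n : ℝ) * Q.P.J / 2 - Q.N + 16 ^ S * (m : ℝ) ^ 2) +
        Q.P.J * Real.sqrt Q.n / 2) + 4 * eps0 * Q.n + HA + CA + FA ≤ ε * Q.n →
      (∀ (vis hid : Leaf) (C : Chain Q.P vis hid Q.n) (K : CutPar Q C)
        [Nonempty (Fin (Q.P.M ^ Q.n))] (hI : Inst Q.P vis hid Q.n η C),
        (∀ i, C.w i = Q.P.ℓ) → K.lo = Q.N - (16 ^ S * m ^ 2 : ℕ) → K.smax = S →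
        K.NB = Q.n * Q.P.J + 1 → K.D0 = m ^ 2 → K.pb = 0 → RowsOK eps0 CL m HA CA FA K hI) →
      (∀ (vis hid : Leaf) (C : Chain Q.P vis hid Q.n), Inst Q.P vis hid Q.n η C →
        (∀ i, C.w i = Q.P.ℓ) →
        av (fun w : Q.Seed =>
          ((rd Q.P Q.mc (toRnd Q.P.J w) vis hid Q.n 0 0 Q.N).card : ℝ)) ≤ A) →
      Q.Good η ε A := by
  filter_upwards [qt_value he hCL, eventually_ge_atTop 1] with m hm hm1
  intro Q S η ε A HA CA FA hM hq hJ hn0 hn hpen hN0 hN2 hS hlast hfinal hrows harea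
  have hne : Nonempty (Fin (Q.P.M ^ Q.n)) := ⟨⟨0, Nat.pow_pos hM⟩⟩
  have hnq : Nonempty (Fin Q.q) := ⟨⟨0, hq⟩⟩
  have hD0 : 0 < m ^ 2 := by positivity
  refine good_of_ex hM hq (fun vis hid C hI hw => ?_) harea
  obtain ⟨K, hlo, k2, k3, k4, k5⟩ : ∃ K : CutPar Q C, K.lo = Q.N - (16 ^ S * m ^ 2 : ℕ) ∧
      K.smax = S ∧ K.NB = Q.n * Q.P.J + 1 ∧ K.D0 = m ^ 2 ∧ K.pb = 0 :=
    ⟨mkCut C S (m ^ 2) hM hq hD0 hn hpen hN0, rfl, rfl, rfl, rfl, rfl⟩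
  obtain ⟨R, P, C7, L, Cap, Fail, h1, h2, h3, h4, h5, h6, h7, h8, h9, h10, h11, h12, h13⟩ :=
    hrows vis hid C K hI hw hlo k2 k3 k4 k5
  have hlo2 : (K.lo : ℝ) = (Q.N : ℝ) - 16 ^ S * (m : ℝ) ^ 2 := by
    rw [hlo]; push_cast; ring
  have hpos : (0 : ℝ) ≤ 16 ^ S * (m : ℝ) ^ 2 := by positivity
  have hVA := av_val (S := Q.P.S) (Cn := Q.Cn) (q := Q.q) (J := Q.P.J) C Q.mc hI.pt hI.hid_le hM
    hq hJ (lo := K.lo) (by rw [hlo2]; linarith)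
  have hpz : Acc.EE (fun x : Fin (Q.P.M ^ Q.n) => C.w x) (fun x => (C.penSum x : ℝ)) = 0 := by
    have : ∀ x, C.penSum x = 0 := fun x => by
      unfold Chain.penSum
      exact sum_eq_zero fun l _ => hpen _ _ _ _
    simp only [this, Nat.cast_zero]
    exact EE_const (w := fun x : Fin (Q.P.M ^ Q.n) => C.w x) (fun x => C.w_pos x) 0
  rw [hpz, add_zero] at hVA
  have key := hm Q vis hid C K η hI R P C7 L Cap Fail
    (((Q.n : ℝ) * Q.P.J / 2 - (K.lo : ℝ)) + Q.P.J * Real.sqrt Q.n / 2)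
    HA CA FA h1 k4 h2 h3 h4 h5 h6 h7 h8 h9 (by rw [k2]; exact hS) (by rw [k2, k3]; exact hlast)
    h10 hVA h11 h12 h13
  rw [hlo2] at key
  have hn1 : (0 : ℝ) < Q.n := by exact_mod_cast hn0
  have h14 : (Q.n : ℝ) * av (fun w => (QAlong Q hI w).ex Q.n 0 Q.N) ≤ Q.n * ε := by
    refine key.trans (le_trans (le_of_eq ?_) (hfinal.trans (le_of_eq (mul_comm _ _))))
    ring
  exact le_of_mul_le_mul_left h14 hn1

end Vale.Agent.P315.H808
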