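import Vale.Agent.P315.H226.Heavy
import Vale.Agent.P315.H295.Final
import Vale.Agent.P315.H659.Seed
import Vale.Agent.P315.H808.QT2
import Vale.Agent.P315.H784.Budget

/-! Query theorem, hypothesis (HE): heavy blocks of scale `0`, averaged over the seeds, for any
chain (weights, labels, penalties). -/

set_option autoImplicit false

open Finset Filter

namespace Vale.Agent.P315.H808

open Vale.Agent.P315.C Vale.Agent.P315.H659 Vale.Agent.P315.H731 Vale.Agent.P315.Acc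

section Seeds

variable {n M S Cn q : ℕ}

/-- Other jitters do not change. -/
theorem toRnd_xi_mix (J : ℕ) {k l : ℕ} (h : k ≠ l) (u w : Ix n M S Cn → Fin q) (m : ℕ) :
    (toRnd J (H132.mix (jitAt n M S Cn l) u w)).xi k m = (toRnd J w).xi k m := by
  unfold toRnd
  dsimp only
  split_ifs with h1
  · rw [H132.mix_not_mem]
    rw [mem_jitAt]
    rintro ⟨x, hx, hl⟩
    have : (⟨⟨k, h1.1⟩, ⟨m, h1.2⟩⟩ : Fin (n + 1) × Fin M) = x := by injection hx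
    rw [← this] at hl
    exact h hl
  · rfl

/-- Jitters of the level `a + 1`. -/
def xiL (J a : ℕ) (w : Ix n M S Cn → Fin q) (m : Fin M) : Fin (J + 1) :=
  if h : a + 1 < n + 1 then jits J w (⟨a + 1, h⟩, m) else 0

theorem toRnd_xi_eq (J : ℕ) {a : ℕ} (ha : a < n) (w : Ix n M S Cn → Fin q) (m : Fin M) :
    (toRnd J w).xi (a + 1) m = (xiL J a w m : ℕ) := by
  unfold xiL
  rw [dif_pos (by omega)]
  exact toRnd_xi J w ⟨a + 1, by omega⟩ m

end Seeds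

/-- Number of the slab of level `a` above `x` in its parent. -/
def chiL {n M : ℕ} (hM : 0 < M) (a : ℕ) (x : Fin (M ^ n)) : Fin M :=
  ⟨(x : ℕ) / M ^ a % M, Nat.mod_lt _ hM⟩

theorem chiL_inj {n M : ℕ} (hM : 0 < M) (a : ℕ) (x y : Fin (M ^ n))
    (h : (x : ℕ) / M ^ (a + 1) = (y : ℕ) / M ^ (a + 1)) (h' : chiL hM a x = chiL hM a y) :
    (x : ℕ) / M ^ a = (y : ℕ) / M ^ a := by
  have h1 : (x : ℕ) / M ^ a % M = (y : ℕ) / M ^ a % M := Fin.ext_iff.1 h'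
  rw [pow_succ, ← Nat.div_div_eq_div_mul, ← Nat.div_div_eq_div_mul] at h
  rw [← Nat.div_add_mod ((x : ℕ) / M ^ a) M, h, h1, Nat.div_add_mod]

theorem He_eq {X : Type} [Fintype X] [Nonempty X] (Sy : Sys X) (t : ℝ) (o : ℕ) :
    H295.He Sy t o = H226.He Sy t o := by
  have hna : Sy.na 0 = Sy.n := by unfold Sys.na; simp
  unfold H295.He H226.He H295.TT
  rw [hna]

section Main

variable {P : Par} {vis hid : Leaf} {n S Cn q : ℕ}

theorem C_mix (K : Chain P vis hid n) (mc : Mach)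
    (h0 : ∃ p, P.μ ∣ p ∧ p ≤ P.B ∧ P.adm p p)
    (hle : ∀ i p q, P.adm p q → hid i p q ≤ vis i p q) (J a : ℕ)
    (u w : Ix n P.M S Cn → Fin q) (i : ℕ) (b : ℤ) :
    (K.along mc (toRnd J (H132.mix (jitAt n P.M S Cn (a + 1)) u w)) h0 hle).C a i b =
      (K.along mc (toRnd J w) h0 hle).C a i b := by
  show (cR P mc (toRnd J (H132.mix (jitAt n P.M S Cn (a + 1)) u w)) vis hid a i (K.lab a i) b
    (K.pos (i * P.M ^ a)) (K.pos ((i + 1) * P.M ^ a)) : ℝ) =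
    (cR P mc (toRnd J w) vis hid a i (K.lab a i) b
    (K.pos (i * P.M ^ a)) (K.pos ((i + 1) * P.M ^ a)) : ℝ)
  rw [cR_mix_jit J P mc vis hid (Nat.lt_succ_self a) u w]

theorem DE_along (K : Chain P vis hid n) (mc : Mach)
    (h0 : ∃ p, P.μ ∣ p ∧ p ≤ P.B ∧ P.adm p p)
    (hle : ∀ i p q, P.adm p q → hid i p q ≤ vis i p q) (ω : Rnd) (j i : ℕ) :
    (K.along mc ω h0 hle).DE j i = bs P.M (fun r => K.d r + 0) j i := rfl

theorem W_along (K : Chain P vis hid n) (mc : Mach)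
    (h0 : ∃ p, P.μ ∣ p ∧ p ≤ P.B ∧ P.adm p p)
    (hle : ∀ i p q, P.adm p q → hid i p q ≤ vis i p q) (ω : Rnd) (j i : ℕ) :
    (K.along mc ω h0 hle).W j i = bs P.M K.w j i := rfl

theorem ex_mix (K : Chain P vis hid n) (mc : Mach)
    (h0 : ∃ p, P.μ ∣ p ∧ p ≤ P.B ∧ P.adm p p)
    (hle : ∀ i p q, P.adm p q → hid i p q ≤ vis i p q) (J a : ℕ)
    (u w : Ix n P.M S Cn → Fin q) :
    (K.along mc (toRnd J (H132.mix (jitAt n P.M S Cn (a + 1)) u w)) h0 hle).ex a =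
      (K.along mc (toRnd J w) h0 hle).ex a := by
  funext i b
  unfold Along.ex
  rw [C_mix, DE_along, DE_along, W_along, W_along]

theorem sft_along (K : Chain P vis hid n) (mc : Mach)
    (h0 : ∃ p, P.μ ∣ p ∧ p ≤ P.B ∧ P.adm p p)
    (hle : ∀ i p q, P.adm p q → hid i p q ≤ vis i p q) (ω : Rnd) (j i : ℕ) :
    (K.along mc ω h0 hle).sft j i = ω.xi (j + 1) (i % P.M) +
      P.pen (j + 1) 1 (K.lab (j + 1) (i / P.M)) (K.lab j i) := rfl

theorem S_mix (K : Chain P vis hid n) (mc : Mach)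
    (h0 : ∃ p, P.μ ∣ p ∧ p ≤ P.B ∧ P.adm p p)
    (hle : ∀ i p q, P.adm p q → hid i p q ≤ vis i p q) (J a : ℕ)
    (u w : Ix n P.M S Cn → Fin q) (x : ℕ) :
    (K.along mc (toRnd J (H132.mix (jitAt n P.M S Cn (a + 1)) u w)) h0 hle).S (a + 1) x =
      (K.along mc (toRnd J w) h0 hle).S (a + 1) x := by
  unfold Along.S
  refine sum_congr rfl fun l hl => ?_
  have hl' := (mem_Ico.1 hl).1
  rw [sft_along, sft_along, toRnd_xi_mix J (by omega)]

theorem e_cut_along (K : Chain P vis hid n) (mc : Mach)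
    (h0 : ∃ p, P.μ ∣ p ∧ p ≤ P.B ∧ P.adm p p)
    (hle : ∀ i p q, P.adm p q → hid i p q ≤ vis i p q) (hM : 0 < P.M) {J a : ℕ} (ha : a < n)
    (lo : ℤ) (w : Ix n P.M S Cn → Fin q) (x : Fin (P.M ^ n)) (β : ℕ) :
    (K.along mc (toRnd J w) h0 hle).e lo a x β =
      (K.along mc (toRnd J w) h0 hle).ex a ((x : ℕ) / P.M ^ a) ((β : ℤ) -
        (((P.pen (a + 1) 1 (K.lab (a + 1) ((x : ℕ) / P.M ^ a / P.M))
      (K.lab a ((x : ℕ) / P.M ^ a)) : ℕ) : ℤ) +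
        ((K.along mc (toRnd J w) h0 hle).S (a + 1) x : ℤ) - lo) -
        ((xiL J a w (chiL hM a x) : ℕ) : ℤ)) := by
  have h2 : (K.along mc (toRnd J w) h0 hle).sft a ((x : ℕ) / P.M ^ a) =
      (xiL J a w (chiL hM a x) : ℕ) +
        P.pen (a + 1) 1 (K.lab (a + 1) ((x : ℕ) / P.M ^ a / P.M))
          (K.lab a ((x : ℕ) / P.M ^ a)) := by
    rw [sft_along, ← toRnd_xi_eq J ha w (chiL hM a x)]
    rfl
  unfold Along.e
  rw [Along.S_succ _ ha x, h2]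
  congr 1
  push_cast
  ring

/-- **(HE)** for the chain `K`, every cut. -/
theorem av_He_chain (K : Chain P vis hid n) (mc : Mach)
    (h0 : ∃ p, P.μ ∣ p ∧ p ≤ P.B ∧ P.adm p p)
    (hle : ∀ i p q, P.adm p q → hid i p q ≤ vis i p q) (hM : 0 < P.M)
    [Nonempty (Fin (P.M ^ n))] {J : ℕ} (hq : 0 < q) (hJ : J + 1 ∣ q) (lo : ℤ)
    (smax NB D0 : ℕ) (qf : ℕ → ℕ) (hD0 : 0 < D0) (hn : 2 ^ smax ∣ n)
    (hsft : ∀ (w : Ix n P.M S Cn → Fin q) (j i : ℕ), j < n → i < P.M ^ (n - j) →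
      (K.along mc (toRnd J w) h0 hle).sft j i ≤ qf j)
    (hfin : (∑ l ∈ range n, (qf l : ℤ)) ≤ lo + (NB * (16 ^ smax * D0) : ℕ))
    (Sy : (Ix n P.M S Cn → Fin q) → Sys (Fin (P.M ^ n)))
    (hSy : ∀ w, Sy w = (K.along mc (toRnd J w) h0 hle).cut hM lo smax NB D0 qf hD0 hn
      (hsft w) hfin)
    (o : ℕ) {t q0 : ℝ} (ht : 0 < t) (hq0 : 0 ≤ q0) :
    av (fun w : Ix n P.M S Cn → Fin q => H295.He (Sy w) t o) ≤
      ∑ a ∈ range n, EE (fun x : Fin (P.M ^ n) => K.w x)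
        (fun x => ind (q0 < H226.share (fun x : Fin (P.M ^ n) => K.w x)
          (fun j x => (x : ℕ) / P.M ^ j) a x)) +
      n * (t⁻¹ * (q0 + (D0 : ℝ) / ((J : ℝ) + 1))) := by
  have : Nonempty (Fin q) := ⟨⟨0, hq⟩⟩
  have e1 : (fun w : Ix n P.M S Cn → Fin q => H295.He (Sy w) t o) =
      fun w => H226.He (Sy w) t o := by
    funext w
    exact He_eq _ _ _
  rw [e1]
  refine H226.av_He (M := P.M) (J := J) (𝒜 := Ix n P.M S Cn → Fin q)
    Sy (fun x : Fin (P.M ^ n) => K.w x) (fun x => K.w_pos x) (fun j x => (x : ℕ) / P.M ^ j) n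
    (NB * 16 ^ smax) D0 ?_ ?_ ?_ ?_ ?_
    (fun a x => chiL hM a x) (fun a _ x y h h' => chiL_inj hM a x y h h')
    (fun a w m => xiL J a w m) (fun a u w => H132.mix (jitAt n P.M S Cn (a + 1)) u w) ?_
    (fun a w x b => (K.along mc (toRnd J w) h0 hle).ex a ((x : ℕ) / P.M ^ a) b) ?_ ?_ ?_
    (fun a w x => ((P.pen (a + 1) 1 (K.lab (a + 1) ((x : ℕ) / P.M ^ a / P.M))
      (K.lab a ((x : ℕ) / P.M ^ a)) : ℕ) : ℤ) +
        ((K.along mc (toRnd J w) h0 hle).S (a + 1) x : ℤ) - lo) ?_ ?_ ?_ o ht hq0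
  · intro w; rw [hSy w]; rfl
  · intro w; rw [hSy w]; rfl
  · intro w; rw [hSy w]; rfl
  · intro w
    rw [hSy w]
    show NB * 16 ^ (smax - 0) = NB * 16 ^ smax
    rw [Nat.sub_zero]
  · intro w
    rw [hSy w]
    show 16 ^ 0 * D0 = D0
    rw [pow_zero, one_mul]
  · intro a ha F hF
    have h1 := av_resample_jit (n := n) (M := P.M) (S := S) (Cn := Cn) hq hJ (a + 1) (by omega)
      F hF
    rw [← h1]
    refine av_congr fun w => ?_
    congr 1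
    funext m
    unfold xiL
    rw [dif_pos (by omega)]
  · intro a ha w x
    exact (K.along mc (toRnd J w) h0 hle).ex_anti hM ha.le (Along.quot_lt hM ha.le x)
  · intro a ha w x b
    exact (K.along mc (toRnd J w) h0 hle).ex_nonneg _ _ _
  · intro a ha w x b
    exact (K.along mc (toRnd J w) h0 hle).ex_le_one hM b ha.le (Along.quot_lt hM ha.le x)
  · intro a ha u w
    funext x b
    rw [ex_mix]
  · intro a ha u w
    funext x
    rw [S_mix]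
  · intro a ha w x β
    rw [hSy w, Along.cut_e _ ha.le, e_cut_along K mc h0 hle hM ha]


/-- Equal weights: every slab has the share `1 / M` of its parent. -/
theorem share_const {M : ℕ} (hM : 0 < M) {f : Fin (M ^ n) → ℝ} {c : ℝ} (hc : 0 < c)
    (hf : ∀ x, f x = c) {a : ℕ} (ha : a < n) (x : Fin (M ^ n)) :
    H226.share f (fun j x => (x : ℕ) / M ^ j) a x = 1 / M := by
  have h : ∀ j, j ≤ n → ∑ y ∈ univ.filter (fun y : Fin (M ^ n) => (y : ℕ) / M ^ j =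
      (x : ℕ) / M ^ j), f y = M ^ j * c := by
    intro j hj
    have h1 := sum_fib hM hj (Along.quot_lt hM hj x) (fun _ => c)
    have h2 : bs M (fun _ => c) j ((x : ℕ) / M ^ j) = M ^ j * c := by
      unfold bs
      rw [sum_const, card_range, nsmul_eq_mul]
      push_cast
      rfl
    rw [← h2, ← h1]
    exact sum_congr rfl fun y _ => hf y
  unfold H226.share
  dsimp only
  rw [h a ha.le, h (a + 1) ha, pow_succ]
  have hM' : (0 : ℝ) < M := by exact_mod_cast hM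
  field_simp

end Main

/-- **(HE)** of `qt_value`, equal weights. -/
theorem CutPar.av_He {Q : QPar} {vis hid : Leaf} {C : Chain Q.P vis hid Q.n} (K : CutPar Q C)
    [Nonempty (Fin (Q.P.M ^ Q.n))] {η : ℝ} (hI : Inst Q.P vis hid Q.n η C)
    {c : ℝ} (hc : 0 < c) (hw : ∀ i, C.w i = c) (hJ : Q.P.J + 1 ∣ Q.q) (o : ℕ) {t : ℝ}
    (ht : 0 < t) :
    av (fun w => H295.He (K.sys hI w) t o) ≤
      Q.n * (t⁻¹ * (1 / (Q.P.M : ℝ) + (K.D0 : ℝ) / ((Q.P.J : ℝ) + 1))) := by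
  have h := av_He_chain (S := Q.P.S) (Cn := Q.Cn) C Q.mc hI.pt hI.hid_le K.hM K.hq hJ K.lo
    K.smax K.NB K.D0 (fun _ => Q.P.J + K.pb) K.hD0 K.hn (fun w => K.sft_le hI w) K.hfin'
    (fun w => K.sys hI w) (fun w => rfl) o ht (q0 := 1 / (Q.P.M : ℝ)) (by positivity)
  refine h.trans (le_of_eq ?_)
  have h0 : ∑ a ∈ range Q.n, EE (fun x : Fin (Q.P.M ^ Q.n) => C.w x)
      (fun x => ind (1 / (Q.P.M : ℝ) < H226.share (fun x : Fin (Q.P.M ^ Q.n) => C.w x)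
        (fun j x => (x : ℕ) / Q.P.M ^ j) a x)) = 0 := by
    refine sum_eq_zero fun a ha => ?_
    have h1 : ∀ x, ind (1 / (Q.P.M : ℝ) < H226.share (fun x : Fin (Q.P.M ^ Q.n) => C.w x)
        (fun j x => (x : ℕ) / Q.P.M ^ j) a x) = 0 := fun x => by
      rw [share_const K.hM hc (fun x => hw x) (mem_range.1 ha) x]
      exact ind_false (lt_irrefl _)
    simp only [h1]
    exact EE_const (w := fun x : Fin (Q.P.M ^ Q.n) => C.w x) (fun x => C.w_pos x) 0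
  rw [h0, zero_add]

/-- **(HE)** with the numbers of the family: `M = 2 ^ (20 m)`, `D₀ = m ^ 2`,
`J + 1 ≥ K₁ m ^ 2 2 ^ m`. -/
theorem he_num {eps0 K1 : ℝ} (he : 0 < eps0) (hK1 : 4 ≤ eps0 * K1) : ∀ᶠ m : ℕ in atTop,
    ∀ J : ℕ, K1 * m ^ 2 * 2 ^ m ≤ (J : ℝ) + 1 →
      (Par.thm m 0 / 2)⁻¹ * (1 / ((2 ^ (20 * m) : ℕ) : ℝ) + ((m ^ 2 : ℕ) : ℝ) / ((J : ℝ) + 1)) ≤
        eps0 := by
  have h1 : Tendsto (fun m : ℕ => (1 / 2 : ℝ) ^ m) atTop (nhds 0) :=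
    tendsto_pow_atTop_nhds_zero_of_lt_one (by norm_num) (by norm_num)
  filter_upwards [h1.eventually (ge_mem_nhds (show (0 : ℝ) < eps0 / 4 by positivity)),
    eventually_ge_atTop 1] with m hm hm1 J hJ
  have hK0 : 0 < K1 := by
    by_contra h
    have : eps0 * K1 ≤ 0 := mul_nonpos_of_nonneg_of_nonpos he.le (not_lt.1 h)
    linarith
  have hp : (0 : ℝ) < 2 ^ m := by positivity
  have hm2 : (0 : ℝ) < (m : ℝ) ^ 2 := by
    have : (0 : ℝ) < m := by exact_mod_cast hm1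
    positivity
  have e1 : (Par.thm m 0 / 2)⁻¹ = 2 * 2 ^ m := by
    unfold Par.thm
    rw [pow_zero, mul_one, one_div, inv_pow, inv_div, div_inv_eq_mul]
  rw [e1]
  have h2 : 2 * (2 : ℝ) ^ m * (1 / ((2 ^ (20 * m) : ℕ) : ℝ)) ≤ eps0 / 2 := by
    have h3 : (1 : ℝ) / ((2 ^ (20 * m) : ℕ) : ℝ) ≤ (1 / 2) ^ (2 * m) := by
      push_cast
      rw [one_div_pow]
      exact one_div_le_one_div_of_le (by positivity) (pow_le_pow_right₀ (by norm_num) (by omega))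
    have h4 : 2 * (2 : ℝ) ^ m * (1 / 2) ^ (2 * m) = 2 * (1 / 2) ^ m := by
      rw [two_mul m, pow_add]
      have : (2 : ℝ) ^ m * (1 / 2) ^ m = 1 := by rw [← mul_pow]; norm_num
      calc 2 * (2 : ℝ) ^ m * ((1 / 2) ^ m * (1 / 2) ^ m) =
          2 * ((2 : ℝ) ^ m * (1 / 2) ^ m) * (1 / 2) ^ m := by ring
        _ = _ := by rw [this]; ring
    have h5 := mul_le_mul_of_nonneg_left h3 (by positivity : (0 : ℝ) ≤ 2 * 2 ^ m)
    rw [h4] at h5
    linarith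
  have h6 : 2 * (2 : ℝ) ^ m * (((m ^ 2 : ℕ) : ℝ) / ((J : ℝ) + 1)) ≤ eps0 / 2 := by
    have hJ0 : (0 : ℝ) < (J : ℝ) + 1 := by positivity
    rw [← mul_div_assoc, div_le_iff₀ hJ0]
    push_cast
    have h7 : eps0 / 2 * (K1 * m ^ 2 * 2 ^ m) ≤ eps0 / 2 * ((J : ℝ) + 1) :=
      mul_le_mul_of_nonneg_left hJ (by positivity)
    have h8 : 2 * ((m : ℝ) ^ 2 * 2 ^ m) ≤ eps0 * K1 / 2 * ((m : ℝ) ^ 2 * 2 ^ m) :=
      mul_le_mul_of_nonneg_right (by linarith) (by positivity)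
    calc 2 * (2 : ℝ) ^ m * (m : ℝ) ^ 2 = 2 * ((m : ℝ) ^ 2 * 2 ^ m) := by ring
      _ ≤ eps0 * K1 / 2 * ((m : ℝ) ^ 2 * 2 ^ m) := h8
      _ = eps0 / 2 * (K1 * m ^ 2 * 2 ^ m) := by ring
      _ ≤ _ := h7
  rw [mul_add]
  linarith

end Vale.Agent.P315.H808
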