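import Vale.Agent.P315.H808.QT5W
import Vale.Agent.P315.H784.ErNumW

/-!
P315, milestone 2: `FinalFam2` from the statement for one instance, with all side conditions on
the numbers in one structure.
-/

set_option autoImplicit false

open Finset Filter
open scoped Classical

namespace Vale.Agent.P315.H808

open Vale.Agent.P315.C Vale.Agent.P315.Acc
open Vale.Agent.P315.H95
open Vale.Agent.P315.H846 (Cut2 q2 Inst2 RowsOK2 goodU)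
open Vale.Agent.P315.H731 (av)
open Vale.Agent.P315.H155 (fam2 famMPW)

/-- Side conditions on the numbers of an instance. -/
structure FamOK2 (m n S ℓ μ B w0 Kc κr : ℕ) : Prop where
  hm : 24 ≤ m
  hn : 0 < n
  hSn : 2 ^ S ∣ n
  hcube : (n + 2) ^ 3 ≤ (2 ^ m) ^ 2 ^ S
  hμ : 0 < μ
  hw0 : 0 < w0
  hℓ : 2 ∣ ℓ
  hwℓ : w0 ∣ ℓ
  hdvd : 2 ^ (2 * m * 2 ^ S) * μ ∣ w0
  hκ : κr ≤ Kc + 3
  hB : 2 * wd (20 * m) w0 n κr ≤ B
  hth : ∀ s, 48 * Par.thm m s ≤ 1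
  hdl : ∀ s, 100000 * Par.dlm m s ≤ Par.thm m s
  hm3 : ∀ s, 3 ≤ m * 2 ^ s

namespace FamOK2

variable {m n S ℓ μ B w0 Kc κr : ℕ} (F : FamOK2 m n S ℓ μ B w0 Kc κr)

include F

theorem g_dvd_w0 {s : ℕ} (hs : s ≤ S) : μ * (famMPW m).g s ∣ w0 :=
  (H784.width_dvd (j := 0) (c := 0) (m' := 0) le_rfl hs F.hdvd).1

theorem g_dvd_wd {s : ℕ} (hs : s ≤ S) (m' j c : ℕ) : μ * (famMPW m).g s ∣ wd m' w0 j c :=
  (H784.width_dvd (j := j) (c := c) (m' := m') le_rfl hs F.hdvd).2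

theorem two_pow_le_wd {s l : ℕ} (hs : s ≤ S) (hl : 3 / 32 * Par.thm m s < (1 / 2 : ℝ) ^ l)
    (m' j c : ℕ) : 2 ^ l ≤ wd m' w0 j c :=
  H784.two_pow_le_wd le_rfl hs F.hμ F.hw0 F.hdvd (F.hm3 s) hl

theorem tau_le (s : ℕ) : 1000 * (64 / (((famMPW m).g s : ℕ) : ℝ) +
    8 / (((2 ^ (20 * m)) ^ 2 ^ s : ℕ) : ℝ) ^ 3) ≤ Par.thm m s := by
  have h1 := H784.rt_le (m := m) (s := s) (by have := F.hm; omega)
  have h2 := F.hdl s
  have h3 := Par.dlm_pos m s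
  linarith

theorem coarse_le (s : ℕ) : 1000 * (32 / (((famMPW m).g s : ℕ) : ℝ)) ≤ Par.thm m s := by
  have h2 := F.hdl s
  have h3 := Par.dlm_pos m s
  rw [H784.famMPW_g, Par.div_gF]
  linarith

end FamOK2

/-- **`FinalFam2` from one instance.** -/
theorem finalFam2_of {C8 Cph Cr Cb : ℝ}
    (h : ∀ eps0 : ℝ, 0 < eps0 → eps0 ≤ 1 → ∀ᶠ m : ℕ in atTop,
      ∀ k cd D1 n S ℓ μ B w0 Kc κr : ℕ, 2 ≤ k → 0 < cd → FamOK2 m n S ℓ μ B w0 Kc κr →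
      ∀ (vis hid : Leaf) (S0 : ℕ → ℕ)
        (C : Chain (fam2 m k cd D1 n S ℓ μ B w0 Kc κr).P vis hid
          (fam2 m k cd D1 n S ℓ μ B w0 Kc κr).n)
        (_ : Inst2 (fam2 m k cd D1 n S ℓ μ B w0 Kc κr).P (20 * m) w0 Kc κr vis hid
          (fam2 m k cd D1 n S ℓ μ B w0 Kc κr).n S0 C)
        (K : Cut2 (fam2 m k cd D1 n S ℓ μ B w0 Kc κr) C)
        [Nonempty (Fin ((fam2 m k cd D1 n S ℓ μ B w0 Kc κr).P.M ^
          (fam2 m k cd D1 n S ℓ μ B w0 Kc κr).n))],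
        K.lo = famN k cd n - (16 ^ S * m ^ 2 : ℕ) → K.smax = S →
        K.NB = n * ((2 ^ k - 1) + D1 * (Kc + 3)) + 1 → K.D0 = m ^ 2 →
        K.qb = (2 ^ k - 1) + D1 * (Kc + 3) →
        ∃ Fail : (fam2 m k cd D1 n S ℓ μ B w0 Kc κr).Seed → ℕ → ℕ → ℕ →
            Fin ((fam2 m k cd D1 n S ℓ μ B w0 Kc κr).P.M ^
              (fam2 m k cd D1 n S ℓ μ B w0 Kc κr).n) → Prop,
          (∀ o s a x, o < 16 ^ K.smax * K.D0 → 1 ≤ s → s ≤ K.smax → (a + 1) * 2 ^ s < n →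
            av (fun w => ind (Fail w o s a x)) ≤ H659.pF Cb m s) ∧
          MachRow2 eps0 C8 Cph Cr m K (goodU (20 * m) n C.lab) (rW K) Fail) :
    FinalFam2 C8 Cph Cr Cb := by
  intro eps0 he he1 K1 _
  filter_upwards [h eps0 he he1, H784.eventually_thrW he 100000] with m hm
    ⟨t1, _, t3, _, t5, _⟩
  intro k cd D1 hk hcd _ _
  refine ⟨2 * m, 0, 1, ?_⟩
  intro n S ℓ μ B w0 Kc κr hn hSn hS3 _ hμ hw0 h2ℓ hdvd hwℓ _ hκ hB vis hid S0 C hI K hne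
    k1 k2 k3 k4 k5
  exact hm k cd D1 n S ℓ μ B w0 Kc κr hk hcd
    ⟨t1, hn, hSn, hS3, hμ, hw0, h2ℓ, hwℓ, hdvd, hκ, hB, fun s => (t3 s).1, fun s => (t3 s).2, t5⟩
    vis hid S0 C hI K k1 k2 k3 k4 k5

/-- **The query theorem of milestone 2 from one instance.** -/
theorem stmtQT2_of_final {C8 Cph Cr Cb : ℝ} (h8 : 0 ≤ C8) (hph : 0 ≤ Cph) (hr : 0 ≤ Cr)
    (hCb : 1 ≤ Cb) (hfin : FinalFam2 C8 Cph Cr Cb) : H846.StmtQT2 fam2 :=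
  H784.stmtQT2_of_rows (CL := 2 * C8 * Cph) (by positivity) (rowsFam2_of h8 hph hr hCb hfin)

end Vale.Agent.P315.H808
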