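import Vale.Agent.P315.H808.RatW
import Vale.Agent.P315.H659.FailRow2
import Vale.Agent.P315.H784.QT4W

/-!
P315, milestone 2: the rows of the query theorem (`H784.RowsFam2`) from the machine inequality of
the single classes.
-/

set_option autoImplicit false

open Finset Filter
open scoped Classical

namespace Vale.Agent.P315.H808

open Vale.Agent.P315.C Vale.Agent.P315.Acc
open Vale.Agent.P315.H95
open Vale.Agent.P315.H846 (Cut2 q2 Inst2 RowsOK2 goodU)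
open Vale.Agent.P315.H731 (av)
open Vale.Agent.P315.H155 (fam2)
open Vale.Agent.P315.H784 (RowsQ2 RowsFam2)

/-- **The machine inequality of the single classes**, with closed numbers: machines `R` with a
small tolerance, and for every top below the root, every row where the samples do not fail and
every class, the inequality for the sets of blocks of the class. -/
def MachRow2 (eps0 C8 Cph Cr : ℝ) (m : ℕ) {Q : QPar} {vis hid : Leaf}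
    {C : Chain Q.P vis hid Q.n} (K : Cut2 Q C) [Nonempty (Fin (Q.P.M ^ Q.n))]
    (good : ℕ → ℕ → Fin (Q.P.M ^ Q.n) → Prop)
    (r : Q.Seed → ℕ → ℕ → Fin (Q.P.M ^ Q.n) → ℝ)
    (Fail : Q.Seed → ℕ → ℕ → ℕ → Fin (Q.P.M ^ Q.n) → Prop) : Prop :=
  ∃ R : ∀ w : Q.Seed, Acc.Mach (K.sys w),
    (∀ w s, 1 ≤ s → s ≤ K.smax → 1000 * (R w).tau s ≤ Par.thm m s) ∧
    ∀ w o s a x, o < 16 ^ K.smax * K.D0 → 1 ≤ s → s ≤ K.smax → (a + 1) * 2 ^ s < Q.n →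
      ¬ Fail w o s a x → ∀ l < m * 2 ^ s + 6,
      H295.lamR (r w) (Par.thm m) (Par.thpm eps0 m) s a x l →
      ∃ Qv err : ℝ, Qv ≤ 2 ^ s * (C8 * (1 / 2) ^ l * (Cph * m * 2 ^ s)) ∧
        err ≤ 16 ^ s * (m : ℝ) ^ 2 * (Cr * (Par.thm m s * (1 / 2) ^ l)) ∧
        ∀ A : Finset ℕ, (∀ k ∈ A, k < (K.sys w).nb s ∧ H295.clsR (R w) (r w) o s a l x k) →
        ∑ k ∈ A, (R w).lhs 8 good o s a x k ≤
          2 * ∑ k ∈ A, ∑ i ∈ range ((K.sys w).D s),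
            (K.sys w).G s a x ((K.sys w).b0 o s k + i) +
          (1 + (((range ((K.sys w).nb s)).filter fun k =>
            k ∉ A ∧ H295.clsR (R w) (r w) o s a l x k).card : ℝ)) * Qv + (A.card : ℝ) * err

/-- **The rows of one instance.** -/
theorem rowsOK2_of {eps0 C8 Cph Cr Cb : ℝ} (he : 0 < eps0) (h8 : 0 ≤ C8) (hph : 0 ≤ Cph)
    (hr : 0 ≤ Cr) (hCb : 1 ≤ Cb) : ∀ᶠ m₀ : ℕ in atTop,
    ∀ (m ℓ μ B w0 J S H Kc D1 n Cn q κr : ℕ) (mc : C.Mach) (N : ℤ)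
      (vis hid : Leaf) (S0 : ℕ → ℕ) (C : Chain (clsPar m ℓ μ B w0 J S H (Kc + 3) D1) vis hid n)
      (_ : Inst2 (clsPar m ℓ μ B w0 J S H (Kc + 3) D1) m w0 Kc κr vis hid n S0 C)
      (K : Cut2 (q2 m ℓ μ B w0 J S H Kc D1 mc n N Cn q) C)
      [Nonempty (Fin ((q2 m ℓ μ B w0 J S H Kc D1 mc n N Cn q).P.M ^
        (q2 m ℓ μ B w0 J S H Kc D1 mc n N Cn q).n))]
      (good : ℕ → ℕ → Fin ((q2 m ℓ μ B w0 J S H Kc D1 mc n N Cn q).P.M ^
        (q2 m ℓ μ B w0 J S H Kc D1 mc n N Cn q).n) → Prop)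
      (Fail : (q2 m ℓ μ B w0 J S H Kc D1 mc n N Cn q).Seed → ℕ → ℕ → ℕ →
        Fin ((q2 m ℓ μ B w0 J S H Kc D1 mc n N Cn q).P.M ^
          (q2 m ℓ μ B w0 J S H Kc D1 mc n N Cn q).n) → Prop),
      (∀ o s a x, o < 16 ^ K.smax * K.D0 → 1 ≤ s → s ≤ K.smax → (a + 1) * 2 ^ s < n →
        av (fun w => ind (Fail w o s a x)) ≤ H659.pF Cb m₀ s) →
      MachRow2 eps0 C8 Cph Cr m₀ K good (rW K) Fail →
      RowsOK2 eps0 (2 * C8 * Cph) m₀ (eps0 * n) (eps0 * n) K good := by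
  filter_upwards [Par.eventually_thr he 0, Par.eventually_thr2 he (80 / 3) (by norm_num),
    H295.capN_sum eps0 C8 Cph Cr 6 he he h8 hph hr, H659.fail_row2 hCb he] with
    m₀ ⟨t1, t2, _, t4⟩ t5 hcap hfail
  intro m ℓ μ B w0 J S H Kc D1 n Cn q κr mc N vis hid S0 C hI K hne good Fail hp hrow
  obtain ⟨R, hR1, hR2⟩ := hrow
  have hth0 : ∀ s, 0 < Par.thm m₀ s := fun s => Par.thm_pos m₀ s
  have hrat : ∀ w, H295.RatOK (K.sys w) (fun s => m₀ * 2 ^ s + 6) (rW K w) (Par.thm m₀)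
      (Par.thpm eps0 m₀) := by
    intro w
    refine ratOK_rW hI K w hth0 (fun s h1 _ => (t1 s h1).1) (fun s _ _ => ?_)
    have e1 : (1 / 2 : ℝ) ^ (m₀ * 2 ^ s + 6) = Par.thm m₀ s * (1 / 64) := by
      rw [pow_add]; unfold Par.thm; norm_num
    have e2 := hth0 s
    show (1 / 2 : ℝ) ^ (m₀ * 2 ^ s + 6) ≤ _
    rw [e1]
    linarith
  refine ⟨R, fun w => H295.thrR (R w) (hrat w) (fun s h1 h2 => hR1 w s h1 h2), 8,
    fun s => 2 * C8 * Cph * m₀ * 2 ^ s,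
    fun _ _ s _ _ => ∑ l ∈ H295.Ls (fun s => m₀ * 2 ^ s + 6) (Par.thm m₀) (Par.thpm eps0 m₀) s,
      H295.CapN C8 Cph Cr m₀ s l,
    fun w o s a x => (a + 1) * 2 ^ s < n ∧ Fail w o s a x, le_rfl, fun _ => rfl, fun _ => rfl,
    fun w s => (Par.thpm_pos he m₀ s).le, fun w s h1 _ => (t1 s h1).2, fun w s t h1 h2 _ => ?_,
    fun s => by positivity, fun s => le_rfl,
    fun w o s a x => sum_nonneg fun l _ => H295.CapN_nonneg h8 hph hr m₀ s l, ?_, ?_, ?_⟩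
  · have h3 := t5 s t h1 h2
    show 80 * Par.thpm eps0 m₀ t ≤ 3 * Par.thm m₀ s
    linarith
  · intro w o ho s hs a ha
    obtain ⟨h1, h2⟩ := mem_Icc.1 hs
    have ha' : (a + 1) * 2 ^ s < n := ha
    have hna : a < (K.sys w).na s := by
      show a < n / 2 ^ s
      exact (Nat.le_div_iff_mul_le (by positivity)).2 ha'.le
    have htau : (R w).tau s ≤ 1 / 2 := by
      have h3 := hR1 w s h1 h2
      have h4 := (t2 s).1
      linarith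
    have hx : ∀ x, ¬ ((a + 1) * 2 ^ s < n ∧ Fail w o s a x) → ¬ Fail w o s a x :=
      fun x h hf => h ⟨ha', hf⟩
    choose! Qv err hQ herr hcls using fun x (hx : ¬ Fail w o s a x) l (hl : l < m₀ * 2 ^ s + 6)
      (hlam : H295.lamR (rW K w) (Par.thm m₀) (Par.thpm eps0 m₀) s a x l) =>
      hR2 w o s a x ho h1 h2 ha hx l hl hlam
    exact H295.h3bU_num (R w) (hrat w) h8 hph hr h1 h2 hna htau
      (Q := fun l x => Qv x l) (err := fun l x => err x l)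
      (fun x hf l hl hlam => hQ x (hx x hf) l hl hlam)
      (fun x hf l hl hlam => herr x (hx x hf) l hl hlam)
      (fun x hf l hl hlam => hcls x (hx x hf) l hl hlam)
  · intro w
    exact hcap (fun s => m₀ * 2 ^ s + 6) (fun s => le_rfl) (K.sys w)
  · intro o ho
    refine hfail (q2 m ℓ μ B w0 J S H Kc D1 mc n N Cn q) vis hid C K
      (fun w s a x => (a + 1) * 2 ^ s < n ∧ Fail w o s a x) ?_
    intro s hs a ha x
    obtain ⟨h1, h2⟩ := mem_Icc.1 hs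
    have hnq : Nonempty (Fin q) := ⟨⟨0, K.hq⟩⟩
    by_cases h : (a + 1) * 2 ^ s < n
    · refine le_trans (le_of_eq ?_) (hp o s a x ho h1 h2 h)
      congr 1
      funext w
      congr 1
      exact propext ⟨fun h' => h'.2, fun h' => ⟨h, h'⟩⟩
    · have h3 : (fun w : (q2 m ℓ μ B w0 J S H Kc D1 mc n N Cn q).Seed =>
          ind ((a + 1) * 2 ^ s < n ∧ Fail w o s a x)) = fun _ => (0 : ℝ) := by
        funext w
        exact ind_false fun h' => h h'.1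
      have h4 : av (fun w : (q2 m ℓ μ B w0 J S H Kc D1 mc n N Cn q).Seed =>
          ind ((a + 1) * 2 ^ s < n ∧ Fail w o s a x)) = 0 := by
        rw [h3]
        exact H731.av_const 0
      exact h4.le.trans (H659.pF_nonneg (by linarith) m₀ s)

/-- **What the machines owe**, for the family: tolerance, failures, single classes. -/
def FinalFam2 (C8 Cph Cr Cb : ℝ) : Prop :=
  ∀ eps0 : ℝ, 0 < eps0 → eps0 ≤ 1 → ∀ K1 : ℕ, 1 ≤ K1 → ∀ᶠ m : ℕ in atTop,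
    ∀ k cd D1 : ℕ, 2 ≤ k → 0 < cd → K1 * m ^ 2 * 2 ^ m ≤ 2 ^ k → 2 ^ k ≤ 2 * K1 * m ^ 2 * 2 ^ m →
    ∃ e₀ a₀ n₀ : ℕ, ∀ n S ℓ μ B w0 Kc κr : ℕ, n₀ ≤ n → 2 ^ S ∣ n →
      (n + 2) ^ 3 ≤ (2 ^ m) ^ 2 ^ S → 2 ^ S ≤ 6 * (Nat.log 2 (n + 2) + 2) → 0 < μ → 0 < w0 →
      2 ∣ ℓ → 2 ^ (e₀ * 2 ^ S) * μ ∣ w0 → w0 ∣ ℓ → a₀ * (Kc + 1) ≤ n → κr ≤ Kc + 3 →
      2 * wd (20 * m) w0 n κr ≤ B →
      ∀ (vis hid : Leaf) (S0 : ℕ → ℕ)
        (C : Chain (fam2 m k cd D1 n S ℓ μ B w0 Kc κr).P vis hid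
          (fam2 m k cd D1 n S ℓ μ B w0 Kc κr).n)
        (_ : Inst2 (fam2 m k cd D1 n S ℓ μ B w0 Kc κr).P (20 * m) w0 Kc κr vis hid
          (fam2 m k cd D1 n S ℓ μ B w0 Kc κr).n S0 C)
        (K : Cut2 (fam2 m k cd D1 n S ℓ μ B w0 Kc κr) C)
        [Nonempty (Fin ((fam2 m k cd D1 n S ℓ μ B w0 Kc κr).P.M ^
          (fam2 m k cd D1 n S ℓ μ B w0 Kc κr).n))],
        K.lo = famN k cd n - (16 ^ S * m ^ 2 : ℕ) → K.smax = S →
        K.NB = n * ((2 ^ k - 1) + D1 * (Kc + 3)) + 1 → K.D0 = m ^ 2 →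
        K.qb = (2 ^ k - 1) + D1 * (Kc + 3) →
        ∃ Fail : (fam2 m k cd D1 n S ℓ μ B w0 Kc κr).Seed → ℕ → ℕ → ℕ →
            Fin ((fam2 m k cd D1 n S ℓ μ B w0 Kc κr).P.M ^
              (fam2 m k cd D1 n S ℓ μ B w0 Kc κr).n) → Prop,
          (∀ o s a x, o < 16 ^ K.smax * K.D0 → 1 ≤ s → s ≤ K.smax → (a + 1) * 2 ^ s < n →
            av (fun w => ind (Fail w o s a x)) ≤ H659.pF Cb m s) ∧
          MachRow2 eps0 C8 Cph Cr m K (goodU (20 * m) n C.lab) (rW K) Fail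

/-- **`RowsFam2` from the machine inequality of the single classes.** -/
theorem rowsFam2_of {C8 Cph Cr Cb : ℝ} (h8 : 0 ≤ C8) (hph : 0 ≤ Cph) (hr : 0 ≤ Cr)
    (hCb : 1 ≤ Cb) (hfin : FinalFam2 C8 Cph Cr Cb) : RowsFam2 (2 * C8 * Cph) := by
  intro eps0 he he1 K1 hK1
  filter_upwards [hfin eps0 he he1 K1 hK1, rowsOK2_of he h8 hph hr hCb] with m hm hrows
  intro k cd D1 hk hcd hk1 hk2
  obtain ⟨e₀, a₀, n₀, hF⟩ := hm k cd D1 hk hcd hk1 hk2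
  refine ⟨e₀, a₀, n₀, ?_⟩
  intro n S ℓ μ B w0 Kc κr hn hSn hS3 hSl hμ hw0 h2ℓ hdvd hwℓ ha hκ hB vis hid S0 C hI K hne
    k1 k2 k3 k4 k5
  obtain ⟨Fail, hp, hrow⟩ := hF n S ℓ μ B w0 Kc κr hn hSn hS3 hSl hμ hw0 h2ℓ hdvd hwℓ ha hκ hB
    vis hid S0 C hI K k1 k2 k3 k4 k5
  have hne2 : Nonempty (Fin ((clsPar (20 * m) ℓ μ B w0 (2 ^ k - 1) (S + 1) (famH m n S)
    (Kc + 3) D1).M ^ n)) := hne
  exact hrows (20 * m) ℓ μ B w0 (2 ^ k - 1) (S + 1) (famH m n S) Kc D1 n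
    (fam2 m k cd D1 n S ℓ μ B w0 Kc κr).Cn (fam2 m k cd D1 n S ℓ μ B w0 Kc κr).q κr
    (H155.famMach m μ B w0 Kc) (famN k cd n) vis hid S0 C hI K (goodU (20 * m) n C.lab) Fail hp hrow

end Vale.Agent.P315.H808
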