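import Vale.Agent.P315.H679.AccDefs
import Vale.Agent.P315.H808.Along

/-! The system of curves of `AccDefs` that belongs to the data along the comparison path, with the
static coordinate started at `lo` and re-indexed by a monotone map `tr` (the cut). -/

set_option autoImplicit false

open Finset

namespace Vale.Agent.P315.H808

open Vale.Agent.P315.Acc

namespace Along

variable {M n : ℕ} (A : Along M n)

theorem nonempty_fin (hM : 0 < M) : Nonempty (Fin (M ^ n)) := ⟨⟨0, Nat.pow_pos hM⟩⟩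

theorem quot_min {j : ℕ} {x y : Fin (M ^ n)} (h : (x : ℕ) / M ^ j = (y : ℕ) / M ^ j) :
    (x : ℕ) / M ^ (min j n) = (y : ℕ) / M ^ (min j n) := by
  rcases le_total j n with hj | hj
  · rwa [min_eq_left hj]
  · rw [min_eq_right hj, Nat.div_eq_of_lt x.isLt, Nat.div_eq_of_lt y.isLt]

/-- The system of curves. -/
noncomputable def sys [Nonempty (Fin (M ^ n))] (hM : 0 < M) (lo : ℤ) (smax NB D0 : ℕ)
    (tr : ℕ → ℕ) (q : ℕ → ℕ) (hD0 : 0 < D0) (hn : 2 ^ smax ∣ n) (hmono : Monotone tr)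
    (hmar : ∀ b, b ≤ 16 ^ smax * D0 → tr b = tr 0)
    (hq : ∀ j i, j < n → i < M ^ (n - j) → A.sft j i ≤ q j)
    (hfin : (∑ l ∈ range n, (q l : ℤ)) ≤ lo + tr (NB * (16 ^ smax * D0))) :
    Sys (Fin (M ^ n)) where
  n := n
  smax := smax
  NB := NB
  D0 := D0
  w := fun x => A.w x
  q := fun j x => (x : ℕ) / M ^ j
  e := fun j x b => A.e lo (min j n) x (tr b)
  hw := fun x => A.w_pos x
  hD0 := hD0
  hn := hn
  nest := fun _ _ _ h => nest h
  meas := fun j x y h => by
    funext b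
    exact congrFun (A.e_meas lo (quot_min h)) (tr b)
  anti := fun j x b b' h => A.e_anti hM lo (min_le_right j n) x (hmono h)
  nonneg := fun j x b => A.e_nonneg _ _ _ _
  le_one := fun j x b => A.e_le_one hM lo (min_le_right j n) x _
  final := fun j x b h => A.e_final hM hq lo (min_le_right j n) x (by
    have := hmono h
    have h2 : (tr (NB * (16 ^ smax * D0)) : ℤ) ≤ tr b := by exact_mod_cast this
    linarith)
  gain := fun j x b h => by
    have h1 : min (j + 1) n = j + 1 := min_eq_left (by omega)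
    have h2 : min j n = j := min_eq_left (by omega)
    rw [h1, h2]
    exact A.e_gain hM lo h x _

section

variable [Nonempty (Fin (M ^ n))] {hM : 0 < M} {lo : ℤ} {smax NB D0 : ℕ}
    {tr : ℕ → ℕ} {q : ℕ → ℕ} {hD0 : 0 < D0} {hn : 2 ^ smax ∣ n} {hmono : Monotone tr}
    {hmar : ∀ b, b ≤ 16 ^ smax * D0 → tr b = tr 0}
    {hq : ∀ j i, j < n → i < M ^ (n - j) → A.sft j i ≤ q j}
    {hfin : (∑ l ∈ range n, (q l : ℤ)) ≤ lo + tr (NB * (16 ^ smax * D0))}

theorem sys_e {j : ℕ} (hj : j ≤ n) (x : Fin (M ^ n)) (b : ℕ) :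
    (A.sys hM lo smax NB D0 tr q hD0 hn hmono hmar hq hfin).e j x b = A.e lo j x (tr b) := by
  show A.e lo (min j n) x (tr b) = _
  rw [min_eq_left hj]

/-- The root curve does not depend on the leaf. -/
theorem sys_root (x : Fin (M ^ n)) (b : ℕ) :
    (A.sys hM lo smax NB D0 tr q hD0 hn hmono hmar hq hfin).e n x b =
      A.ex n 0 (lo + tr b) := by
  rw [A.sys_e le_rfl]
  unfold e
  rw [Nat.div_eq_of_lt x.isLt, A.S_top]
  simp

theorem sys_E_root (b : ℕ) :
    (A.sys hM lo smax NB D0 tr q hD0 hn hmono hmar hq hfin).E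
      (fun x => (A.sys hM lo smax NB D0 tr q hD0 hn hmono hmar hq hfin).e n x b) =
      A.ex n 0 (lo + tr b) := by
  simp only [A.sys_root]
  exact EE_const (A.sys hM lo smax NB D0 tr q hD0 hn hmono hmar hq hfin).hw _

/-- The total gain, for the truncation `tr b = b - D` of natural numbers. -/
theorem sys_Gam_le (htr : ∀ b, tr b = b - 16 ^ smax * D0) :
    (A.sys hM lo smax NB D0 tr q hD0 hn hmono hmar hq hfin).Gam ≤
      ((16 ^ smax * D0 : ℕ) : ℝ) +
        EE (fun x : Fin (M ^ n) => A.w x) (fun x => max 0 ((A.S 0 x : ℝ) - lo)) := by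
  set Sy := A.sys hM lo smax NB D0 tr q hD0 hn hmono hmar hq hfin with hSy
  set DD := 16 ^ smax * D0 with hDD
  have hw : ∀ x, 0 < Sy.w x := Sy.hw
  have h1 : ∀ b, Sy.E (fun x => Sy.e 0 x b) - Sy.E (fun x => Sy.e Sy.n x b) ≤
      EE Sy.w (fun x : Fin (M ^ n) => (if b < DD then 1 else A.e lo 0 x (b - DD))) := by
    intro b
    have h2 : 0 ≤ Sy.E (fun x => Sy.e Sy.n x b) := EE_nonneg hw fun x => Sy.nonneg _ _ _
    have h3 : Sy.E (fun x => Sy.e 0 x b) ≤
        EE Sy.w (fun x : Fin (M ^ n) => (if b < DD then 1 else A.e lo 0 x (b - DD))) := by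
      refine EE_mono hw fun x => ?_
      split_ifs with hb
      · exact Sy.le_one _ _ _
      · rw [hSy, A.sys_e (Nat.zero_le _), htr]
    linarith
  have h4 : Sy.Gam ≤ ∑ b ∈ range Sy.T,
      EE Sy.w (fun x : Fin (M ^ n) => (if b < DD then 1 else A.e lo 0 x (b - DD))) :=
    sum_le_sum fun b _ => h1 b
  rw [← EE_sum] at h4
  refine h4.trans ?_
  have h5 : ((DD : ℕ) : ℝ) + EE (fun x : Fin (M ^ n) => A.w x)
      (fun x => max 0 ((A.S 0 x : ℝ) - lo)) =
      EE Sy.w (fun x : Fin (M ^ n) => (DD : ℝ) + max 0 ((A.S 0 x : ℝ) - lo)) := by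
    rw [EE_add, EE_const hw]
    rfl
  rw [h5]
  refine EE_mono hw fun x => ?_
  have hT : Sy.T ≤ DD + Sy.T := by omega
  have h6 : ∑ b ∈ range Sy.T, (if b < DD then (1 : ℝ) else A.e lo 0 x (b - DD)) ≤
      ∑ b ∈ range (DD + Sy.T), (if b < DD then (1 : ℝ) else A.e lo 0 x (b - DD)) :=
    sum_le_sum_of_subset_of_nonneg (range_mono hT) fun b _ _ => by
      split_ifs
      · exact zero_le_one
      · exact A.e_nonneg _ _ _ _
  refine h6.trans ?_
  rw [sum_range_add]
  have h7 : ∑ b ∈ range DD, (if b < DD then (1 : ℝ) else A.e lo 0 x (b - DD)) = DD := by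
    rw [sum_congr rfl fun b hb => if_pos (mem_range.1 hb)]
    simp
  have h8 : ∑ b ∈ range Sy.T, (if DD + b < DD then (1 : ℝ) else A.e lo 0 x (DD + b - DD)) =
      ∑ b ∈ range Sy.T, A.e lo 0 x b := by
    refine sum_congr rfl fun b _ => ?_
    rw [if_neg (by omega)]
    congr 1
    omega
  rw [h7, h8]
  have := A.sum_e_leaf hM lo x Sy.T
  linarith

end

end Along

end Vale.Agent.P315.H808
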